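import Vale.Agent.Lib.P329.Tele

open Computability

namespace Vale.Agent.Lib.P329

noncomputable section

open scoped Classical

section CLevel

variable {α : Type}

/-- Number of letters of `w` satisfying `S`. -/
def mv (S : α → Prop) (w : List α) : ℕ := (w.map (fun x => if S x then 1 else 0)).sum

@[simp] theorem mv_nil (S : α → Prop) : mv S [] = 0 := rfl

theorem mv_append (S : α → Prop) (u v : List α) : mv S (u ++ v) = mv S u + mv S v := by
  simp [mv, List.sum_append]

theorem mv_cons (S : α → Prop) (a : α) (w : List α) :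
    mv S (a :: w) = (if S a then 1 else 0) + mv S w := by
  simp [mv]

theorem mv_snoc (S : α → Prop) (w : List α) (x : α) :
    mv S (w ++ [x]) = mv S w + (if S x then 1 else 0) := by
  simp [mv, List.sum_append]

theorem mv_replicate (S : α → Prop) (u : List α) (i : ℕ) :
    mv S (List.replicate i u).flatten = i * mv S u := by
  induction i with
  | zero => simp
  | succ i ih =>
    rw [List.replicate_succ, List.flatten_cons, mv_append, ih]
    ring

/-- Splitting a word at its `j`-th letter in `S`. -/
theorem split_at_moving (S : α → Prop) (W : List α) (j : ℕ) (h : j < mv S W) :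
    ∃ v1 x v2, W = v1 ++ x :: v2 ∧ S x ∧ mv S v1 = j := by
  induction W generalizing j with
  | nil => simp at h
  | cons a W ih =>
    rw [mv_cons] at h
    by_cases ha : S a
    · simp only [ha, if_true] at h
      rcases j with _ | j
      · exact ⟨[], a, W, rfl, ha, rfl⟩
      · obtain ⟨v1, x, v2, h1, h2, h3⟩ := ih j (by omega)
        refine ⟨a :: v1, x, v2, by simp [h1], h2, ?_⟩
        rw [mv_cons, h3]
        simp [ha]
        omega
    · simp only [ha, if_false, zero_add] at h
      obtain ⟨v1, x, v2, h1, h2, h3⟩ := ih j h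
      refine ⟨a :: v1, x, v2, by simp [h1], h2, ?_⟩
      rw [mv_cons, h3]
      simp [ha]

variable {n m : ℕ}

/-- The increment event of the composite counting automaton. -/
def CIncP (S N : α → Prop) (t : ZMod n) (x : α) : Prop :=
  (S x ∧ t + 1 = 0) ∨ (N x ∧ t = 0)

/-- The composite counting automaton: letters in `S` move the level by one. -/
def cstp (m : ℕ) (S N : α → Prop) (x : α) (q : ZMod n × ZMod m) : ZMod n × ZMod m :=
  (q.1 + (if S x then 1 else 0), q.2 + (if CIncP S N q.1 x then 1 else 0))

variable {S N : α → Prop}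

theorem crun_t (w : List α) (q : ZMod n × ZMod m) :
    (run (cstp m S N) w q).1 = q.1 + ((mv S w : ℕ) : ZMod n) := by
  induction w using List.reverseRecOn with
  | nil => simp [run]
  | append_singleton w x ih =>
    rw [run_snoc, mv_snoc]
    simp only [cstp, ih]
    by_cases h : S x <;> simp [h, add_assoc]

variable [NeZero m]

variable (hN : ∀ x, N x → ¬ S x)

include hN in
theorem cstep_val (x : α) (q : ZMod n × ZMod m) (h : cstp m S N x q ≠ (0, 0)) :
    q.2.val ≤ (cstp m S N x q).2.val ∧
      (CIncP S N q.1 x → q.2.val < (cstp m S N x q).2.val) := by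
  by_cases hi : CIncP S N q.1 x
  · have ht : q.1 + (if S x then 1 else 0) = 0 := by
      rcases hi with ⟨h1, h2⟩ | ⟨h1, h2⟩
      · simp [h1, h2]
      · simp [hN x h1, h2]
    have hne : q.2 + 1 ≠ 0 := by
      intro h0
      apply h
      simp only [cstp, hi, if_true, ht, h0]
    have hv : (cstp m S N x q).2.val = q.2.val + 1 := by
      simp only [cstp, hi, if_true]
      exact val_succ_of_ne _ hne
    rw [hv]
    exact ⟨Nat.le_succ _, fun _ => Nat.lt_succ_self _⟩
  · have hv : (cstp m S N x q).2 = q.2 := by
      simp [cstp, hi]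
    rw [hv]
    exact ⟨le_rfl, fun h => absurd h hi⟩

include hN in
theorem cmono_val (v : List α) (q : ZMod n × ZMod m)
    (h : run (absorb (cstp m S N) (0, 0)) v q ≠ (0, 0)) :
    q.2.val ≤ (run (absorb (cstp m S N) (0, 0)) v q).2.val := by
  induction v generalizing q with
  | nil => exact le_rfl
  | cons a v ih =>
    simp only [run_cons] at h ⊢
    have hq : q ≠ (0, 0) := by
      rintro rfl
      apply h
      rw [show absorb (cstp m S N) (0, 0) a ((0 : ZMod n), (0 : ZMod m)) = (0, 0) by
        simp [absorb]]
      exact absorb_base v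
    have hstep : absorb (cstp m S N) (0, 0) a q ≠ (0, 0) := by
      intro h0
      apply h
      rw [h0]
      exact absorb_base v
    rw [absorb_ne a hq] at h hstep ⊢
    exact le_trans (cstep_val hN a q hstep).1 (ih _ h)

include hN in
/-- No increment can occur on a closed path that avoids the base state. -/
theorem cno_inc (v1 : List α) (x : α) (v2 : List α) (q : ZMod n × ZMod m)
    (hq : q ≠ (0, 0))
    (hc : run (absorb (cstp m S N) (0, 0)) (v1 ++ x :: v2) q = q) :
    ¬ CIncP S N (run (cstp m S N) v1 q).1 x := by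
  intro hinc
  rw [run_append, run_cons] at hc
  have hb : absorb (cstp m S N) (0, 0) x
      (run (absorb (cstp m S N) (0, 0)) v1 q) ≠ (0, 0) := by
    intro h0
    rw [h0] at hc
    exact hq ((hc.symm).trans (absorb_base v2))
  have ha : run (absorb (cstp m S N) (0, 0)) v1 q ≠ (0, 0) := by
    intro h0
    apply hb
    rw [h0]
    simp [absorb]
  have ha' : run (cstp m S N) v1 q = run (absorb (cstp m S N) (0, 0)) v1 q :=
    run_eq_of_ne v1 q ha
  rw [ha'] at hinc
  have h1 := cmono_val hN v1 q ha
  have h3 := cmono_val hN v2 _ (by rw [hc]; exact hq)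
  rw [hc] at h3
  rw [absorb_ne x ha] at hb h3
  have h2 := (cstep_val hN x _ hb).2 hinc
  omega

theorem iter_ne_b {Q : Type} {f : Q → Q} {b : Q} (hf : f b = b) {q : Q}
    (hq : q ≠ b) {k : ℕ} (hk : 0 < k) (hper : f^[k] q = q) (i : ℕ) :
    f^[i] q ≠ b := by
  intro h0
  have h1 : f^[k * i] q = q := by
    rw [Function.iterate_mul]
    exact Function.iterate_fixed hper i
  have hle : i ≤ k * i := Nat.le_mul_of_pos_left i hk
  have h2 : f^[k * i] q = f^[k * i - i] (f^[i] q) := by
    rw [← Function.iterate_add_apply, Nat.sub_add_cancel hle]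
  rw [h2, h0, Function.iterate_fixed hf] at h1
  exact hq h1.symm

variable [NeZero n]

include hN in
/-- Aperiodicity of the composite counting automaton with absorbing base. -/
theorem aper_cstp [Finite α] : Aper (absorb (cstp (n := n) m S N) (0, 0)) := by
  apply aper_of_fixed
  intro u q k hk hper
  by_cases hq : q = (0, 0)
  · subst hq
    exact absorb_base u
  have hf0 : run (absorb (cstp (n := n) m S N) (0, 0)) u (0, 0) = (0, 0) := absorb_base u
  have hne : ∀ i, (run (absorb (cstp (n := n) m S N) (0, 0)) u)^[i] q ≠ (0, 0) :=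
    fun i => iter_ne_b hf0 hq hk hper i
  have hmv : mv S u = 0 := by
    by_contra h0
    have hW : run (absorb (cstp (n := n) m S N) (0, 0)) (List.replicate (k * n) u).flatten q = q := by
      rw [← iterate_eq_run_pow, Function.iterate_mul]
      exact Function.iterate_fixed hper _
    have hnpos : 0 < n := Nat.pos_of_ne_zero (NeZero.ne n)
    have hlt : (-q.1 - 1 : ZMod n).val < mv S (List.replicate (k * n) u).flatten := by
      rw [mv_replicate]
      have h1 := ZMod.val_lt (-q.1 - 1 : ZMod n)
      have h2 : n ≤ k * n * mv S u := by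
        have h3 : 1 ≤ k * mv S u := Nat.mul_pos hk (Nat.pos_of_ne_zero h0)
        calc n = 1 * n := (one_mul n).symm
          _ ≤ (k * mv S u) * n := Nat.mul_le_mul_right n h3
          _ = k * n * mv S u := by ring
      omega
    obtain ⟨v1, x, v2, hs, hSx, hj⟩ := split_at_moving S _ _ hlt
    rw [hs] at hW
    apply cno_inc hN v1 x v2 q hq hW
    refine Or.inl ⟨hSx, ?_⟩
    rw [crun_t, hj, ZMod.natCast_zmod_val]
    ring
  have hq1 : run (absorb (cstp (n := n) m S N) (0, 0)) u q ≠ (0, 0) := hne 1
  obtain ⟨k', rfl⟩ : ∃ k', k = k' + 1 := ⟨k - 1, by omega⟩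
  have hy1 := cmono_val hN u q hq1
  have hV : run (absorb (cstp (n := n) m S N) (0, 0)) (List.replicate k' u).flatten
      (run (absorb (cstp (n := n) m S N) (0, 0)) u q) = q := by
    rw [← iterate_eq_run_pow, ← Function.iterate_succ_apply, hper]
  have hy2 := cmono_val hN (List.replicate k' u).flatten
    (run (absorb (cstp (n := n) m S N) (0, 0)) u q) (by rw [hV]; exact hq)
  rw [hV] at hy2
  have hy : (run (absorb (cstp (n := n) m S N) (0, 0)) u q).2 = q.2 :=
    ZMod.val_injective m (le_antisymm hy2 hy1)
  have ht : (run (absorb (cstp (n := n) m S N) (0, 0)) u q).1 = q.1 := by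
    rw [← run_eq_of_ne u q hq1, crun_t, hmv]
    simp
  exact Prod.ext ht hy

omit [NeZero m] [NeZero n] in
theorem run_cy (s0 : ZMod n) (w : List α) :
    (run (cstp m S N) w (s0, 0)).2 =
      ((cnt (fun pre x => if CIncP S N (s0 + ((mv S pre : ℕ) : ZMod n)) x then (1 : ℤ) else 0) w : ℤ)
        : ZMod m) := by
  induction w using List.reverseRecOn with
  | nil => simp [run]
  | append_singleton w x ih =>
    rw [run_snoc, cnt_snoc]
    simp only [cstp]
    rw [ih, crun_t]
    split_ifs <;> simp

omit [NeZero m] [NeZero n] in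
/-- The increment counts of the composite automaton are resolved. -/
theorem rg_cinc [NeZero n] [Finite α] (hN : ∀ x, N x → ¬ S x) (s0 : ZMod n) :
    Rg (fun pre x => if CIncP S N (s0 + ((mv S pre : ℕ) : ZMod n)) x then (1 : ℤ) else 0) := by
  intro m hm
  haveI : NeZero m := ⟨hm⟩
  have h1 : Res (fun w : List α => (run (cstp (n := n) m S N) w (s0, 0)).2) :=
    res_factor (res_run (aper_cstp hN) (s0, 0))
      (fun w w' h => congrArg (fun q : ZMod n × ZMod m => q.2) h)
  intro c
  exact gsh_lang_congr (fun w => by simp only [run_cy]) (h1 c)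

omit [NeZero n] in
/-- Counting a non-moving letter at a given level modulo `n`. -/
theorem rg_clevel [NeZero n] [Finite α] (S : α → Prop) (c : α) (hc : ¬ S c) (θ : ZMod n) :
    Rg (fun (pre : List α) (x : α) =>
      if x = c ∧ ((mv S pre : ℕ) : ZMod n) = θ then (1 : ℤ) else 0) := by
  have h1 := rg_cinc (n := n) (S := S) (N := fun x => x = c)
    (fun x h => by rw [h]; exact hc) (-θ)
  have h2 := rg_cinc (n := n) (S := S) (N := fun _ => False) (fun _ h => h.elim) (-θ)
  refine rg_congr (fun pre x => ?_) (rg_sub h1 h2)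
  simp only [CIncP]
  have key : (-θ + ((mv S pre : ℕ) : ZMod n) = 0) ↔ (((mv S pre : ℕ) : ZMod n) = θ) := by
    rw [neg_add_eq_sub, sub_eq_zero]
  by_cases hx : x = c
  · subst hx
    simp [hc, key]
  · simp [hx]

end CLevel

end

end Vale.Agent.Lib.P329
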