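import Vale.Agent.Lib.P329.Quad
import Mathlib.GroupTheory.Nilpotent
import Mathlib.GroupTheory.Commutator.Basic
import Mathlib.GroupTheory.OrderOfElement
import Mathlib.Tactic.Group

open Computability

namespace Vale.Agent.Lib.P329

noncomputable section

open scoped Classical commutatorElement

section Coll

variable {α G : Type} [Group G]

/-- Ordered products of weights along a word, from a given prefix. -/
def acntFrom (F : List α → α → G) : List α → List α → G
  | _, [] => 1
  | pre, x :: w => F pre x * acntFrom F (pre ++ [x]) w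

/-- Ordered product of the weights of all positions of a word. -/
def acnt (F : List α → α → G) (w : List α) : G := acntFrom F [] w

theorem acntFrom_snoc (F : List α → α → G) (w pre : List α) (x : α) :
    acntFrom F pre (w ++ [x]) = acntFrom F pre w * F (pre ++ w) x := by
  induction w generalizing pre with
  | nil => simp [acntFrom]
  | cons a w ih =>
    simp only [List.cons_append, acntFrom]
    rw [ih, mul_assoc]
    simp

@[simp] theorem acnt_nil (F : List α → α → G) : acnt F [] = 1 := rfl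

theorem acnt_snoc (F : List α → α → G) (w : List α) (x : α) :
    acnt F (w ++ [x]) = acnt F w * F w x := by
  simpa [acnt] using acntFrom_snoc F w [] x

/-- `F` takes values in `A` and its products are resolved. -/
def RaG (A : Subgroup G) (F : List α → α → G) : Prop :=
  (∀ pre x, F pre x ∈ A) ∧ Res (acnt F)

theorem acnt_mem {A : Subgroup G} {F : List α → α → G} (h : ∀ pre x, F pre x ∈ A) (w : List α) :
    acnt F w ∈ A := by
  induction w using List.reverseRecOn with
  | nil => exact A.one_mem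
  | append_singleton w x ih =>
    rw [acnt_snoc]
    exact A.mul_mem ih (h _ _)

theorem raG_congr {A : Subgroup G} {F F' : List α → α → G} (h : ∀ pre x, F pre x = F' pre x)
    (hF : RaG A F) : RaG A F' := by
  have : F = F' := funext fun pre => funext fun x => h pre x
  rwa [← this]

variable [Finite G]

theorem raG_mul {A : Subgroup G} (hcomm : ∀ a ∈ A, ∀ b ∈ A, a * b = b * a)
    {F F' : List α → α → G} (hF : RaG A F) (hF' : RaG A F') :
    RaG A (fun pre x => F pre x * F' pre x) := by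
  refine ⟨fun pre x => A.mul_mem (hF.1 pre x) (hF'.1 pre x), ?_⟩
  have key : ∀ w, acnt (fun pre x => F pre x * F' pre x) w = acnt F w * acnt F' w := by
    intro w
    induction w using List.reverseRecOn with
    | nil => simp
    | append_singleton w x ih =>
      rw [acnt_snoc, acnt_snoc, acnt_snoc, ih]
      have h1 := hcomm _ (acnt_mem hF'.1 w) _ (hF.1 w x)
      calc acnt F w * acnt F' w * (F w x * F' w x)
          = acnt F w * (acnt F' w * F w x) * F' w x := by simp only [mul_assoc]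
        _ = acnt F w * (F w x * acnt F' w) * F' w x := by rw [h1]
        _ = _ := by simp only [mul_assoc]
  refine res_factor (res_pair hF.2 hF'.2) (fun w w' H => ?_)
  simp only [Prod.mk.injEq] at H
  rw [key, key, H.1, H.2]

theorem zpow_eq_of_cast (a : G) {i j : ℤ}
    (h : ((i : ℤ) : ZMod (Nat.card G)) = ((j : ℤ) : ZMod (Nat.card G))) : a ^ i = a ^ j := by
  rw [ZMod.intCast_eq_intCast_iff_dvd_sub] at h
  obtain ⟨t, ht⟩ := h
  have h4 : j = i + (Nat.card G : ℤ) * t := by linarith
  rw [h4, zpow_add, zpow_mul, zpow_natCast, pow_card_eq_one', one_zpow, mul_one]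

theorem raG_pow {A : Subgroup G} {a : G} (ha : a ∈ A) {E : List α → α → ℤ} (hE : Rg E) :
    RaG A (fun pre x => a ^ (E pre x)) := by
  refine ⟨fun pre x => A.zpow_mem ha _, ?_⟩
  have key : ∀ w, acnt (fun pre x => a ^ (E pre x)) w = a ^ (cnt E w) := by
    intro w
    induction w using List.reverseRecOn with
    | nil => simp
    | append_singleton w x ih =>
      rw [acnt_snoc, cnt_snoc, ih, zpow_add]
  have hcard : Nat.card G ≠ 0 := Nat.card_pos.ne'
  haveI := finite_zmod hcard
  refine res_factor (hE _ hcard) (fun w w' H => ?_)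
  rw [key, key]
  exact zpow_eq_of_cast a H

theorem raG_one (A : Subgroup G) : RaG (α := α) A (fun _ _ => 1) := by
  refine raG_congr (fun _ _ => ?_) (raG_pow (A.one_mem) (rg_zero (α := α)))
  simp

theorem raG_if {A : Subgroup G} {a : G} (ha : a ∈ A) {c : α} {f : List α → ℤ}
    (h : Rg (fun pre x => if x = c then f pre else 0)) :
    RaG A (fun pre x => if x = c then a ^ (f pre) else 1) := by
  refine raG_congr (fun pre x => ?_) (raG_pow ha h)
  by_cases hx : x = c <;> simp [hx]

end Coll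

section Comm

variable {G : Type} [Group G] {A : Subgroup G}

theorem kap_mul (hZ : ∀ a ∈ A, ∀ g h : G, Commute h ⁅g, a⁆) {a : G} (ha : a ∈ A) (g h : G) :
    ⁅g * h, a⁆ = ⁅g, a⁆ * ⁅h, a⁆ := by
  have h1 : ⁅g * h, a⁆ = g * ⁅h, a⁆ * g⁻¹ * ⁅g, a⁆ := by
    simp only [commutatorElement_def]
    group
  rw [h1, (hZ a ha h g).eq, mul_inv_cancel_right]
  exact (hZ a ha h ⁅g, a⁆).eq.symm ▸ rfl

theorem kap_pow (hZ : ∀ a ∈ A, ∀ g h : G, Commute h ⁅g, a⁆) {a : G} (ha : a ∈ A) (g : G) (k : ℕ) :
    ⁅g ^ k, a⁆ = ⁅g, a⁆ ^ k := by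
  induction k with
  | zero => simp
  | succ k ih => rw [pow_succ', kap_mul hZ ha, ih, pow_succ']

theorem comm_pow (hZ : ∀ a ∈ A, ∀ g h : G, Commute h ⁅g, a⁆) (hC : ∀ g h : G, ⁅g, h⁆ ∈ A)
    (f z : G) (k : ℕ) :
    ⁅f ^ k, z⁆ = ⁅f, z⁆ ^ k * ⁅f, ⁅f, z⁆⁆ ^ (k.choose 2) := by
  set C := ⁅f, z⁆ with hCdef
  set κ := ⁅f, C⁆ with hκdef
  have hκ : ∀ h : G, Commute h κ := hZ C (hC f z) f
  induction k with
  | zero => simp
  | succ k ih =>
    have h1 : ⁅f ^ (k + 1), z⁆ = f * ⁅f ^ k, z⁆ * f⁻¹ * C := by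
      rw [pow_succ', hCdef]
      simp only [commutatorElement_def]
      group
    have h2 : f * C * f⁻¹ = κ * C := by
      rw [hκdef]
      simp only [commutatorElement_def]
      group
    have h3 : f * (C ^ k * κ ^ (k.choose 2)) * f⁻¹ = κ ^ k * C ^ k * κ ^ (k.choose 2) := by
      have h4 : f * C ^ k * f⁻¹ = κ ^ k * C ^ k := by
        rw [← conj_pow, h2, (hκ C).symm.mul_pow]
      rw [← h4]
      have h5 := ((hκ f⁻¹).pow_right (k.choose 2)).eq
      calc f * (C ^ k * κ ^ (k.choose 2)) * f⁻¹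
          = f * C ^ k * (κ ^ (k.choose 2) * f⁻¹) := by simp only [mul_assoc]
        _ = f * C ^ k * (f⁻¹ * κ ^ (k.choose 2)) := by rw [h5]
        _ = _ := by simp only [mul_assoc]
    rw [h1, ih, h3, Nat.choose_succ_succ' k 1, Nat.choose_one_right, pow_succ, pow_add]
    have h6 := ((hκ C).pow_right k).eq
    have h7 := ((hκ (C ^ k)).pow_right k).eq
    have h8 := ((hκ C).pow_right (k.choose 2)).eq
    calc κ ^ k * C ^ k * κ ^ (k.choose 2) * C
        = C ^ k * κ ^ k * κ ^ (k.choose 2) * C := by rw [h7]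
      _ = C ^ k * κ ^ k * (κ ^ (k.choose 2) * C) := by simp only [mul_assoc]
      _ = C ^ k * κ ^ k * (C * κ ^ (k.choose 2)) := by rw [h8]
      _ = C ^ k * (κ ^ k * C) * κ ^ (k.choose 2) := by simp only [mul_assoc]
      _ = C ^ k * (C * κ ^ k) * κ ^ (k.choose 2) := by rw [h6]
      _ = _ := by simp only [mul_assoc]

theorem conj_form (hZ : ∀ a ∈ A, ∀ g h : G, Commute h ⁅g, a⁆) {C : G} (hC : C ∈ A) (P : G)
    {z : G} (hz : ∀ h : G, Commute h z) (k : ℕ) :
    P * (C ^ k * z) * P⁻¹ = C ^ k * z * ⁅P, C⁆ ^ k := by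
  have hκ : ∀ h : G, Commute h ⁅P, C⁆ := hZ C hC P
  have h2 : P * C * P⁻¹ = ⁅P, C⁆ * C := by
    simp only [commutatorElement_def]
    group
  have h4 : P * C ^ k * P⁻¹ = ⁅P, C⁆ ^ k * C ^ k := by
    rw [← conj_pow, h2, (hκ C).symm.mul_pow]
  have h5 := (hz P⁻¹).eq
  have h6 := ((hκ (C ^ k * z)).pow_right k).eq
  calc P * (C ^ k * z) * P⁻¹ = P * C ^ k * (z * P⁻¹) := by simp only [mul_assoc]
    _ = P * C ^ k * (P⁻¹ * z) := by rw [← h5]
    _ = (P * C ^ k * P⁻¹) * z := by simp only [mul_assoc]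
    _ = ⁅P, C⁆ ^ k * C ^ k * z := by rw [h4]
    _ = ⁅P, C⁆ ^ k * (C ^ k * z) := by simp only [mul_assoc]
    _ = _ := h6.symm

/-- The main formula for one factor of the collection. -/
theorem one_factor (hZ : ∀ a ∈ A, ∀ g h : G, Commute h ⁅g, a⁆) (hC : ∀ g h : G, ⁅g, h⁆ ∈ A)
    (P f z : G) (k : ℕ) :
    P * ⁅f ^ k, z⁆ * P⁻¹ =
      ⁅f, z⁆ ^ k * ⁅f, ⁅f, z⁆⁆ ^ (k.choose 2) * ⁅P, ⁅f, z⁆⁆ ^ k := by
  rw [comm_pow hZ hC]
  exact conj_form hZ (hC f z) P
    (fun h => (hZ ⁅f, z⁆ (hC f z) f h).pow_right _) k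

end Comm

section Word

variable {α G : Type} [Group G] (φ : α → G)

/-- The ordered section: the product over the list `L` of the letters raised to their counts. -/
def gw (L w : List α) : G := (L.map (fun y => φ y ^ (vc y w))).prod

@[simp] theorem gw_nil (w : List α) : gw φ [] w = 1 := rfl

theorem gw_cons (l : α) (L w : List α) : gw φ (l :: L) w = φ l ^ (vc l w) * gw φ L w := by
  simp [gw]

theorem gw_append (L1 L2 w : List α) : gw φ (L1 ++ L2) w = gw φ L1 w * gw φ L2 w := by
  simp [gw, List.prod_append]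

theorem gw_snoc_notin {L : List α} {c : α} (hc : c ∉ L) (w : List α) :
    gw φ L (w ++ [c]) = gw φ L w := by
  unfold gw
  congr 1
  apply List.map_congr_left
  intro y hy
  have hne : c ≠ y := fun h => hc (h ▸ hy)
  rw [vc_snoc]
  simp [hne]

theorem gw_word_nil (L : List α) : gw φ L ([] : List α) = 1 := by
  unfold gw
  apply List.prod_eq_one
  intro g hg
  obtain ⟨y, -, rfl⟩ := List.mem_map.1 hg
  simp [vc]

theorem prod_if [DecidableEq α] (B : α → G) (x : α) {L : List α} (hL : L.Nodup) (hx : x ∈ L) :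
    (L.map (fun c => if x = c then B c else 1)).prod = B x := by
  induction L with
  | nil => simp at hx
  | cons a L ih =>
    rw [List.map_cons, List.prod_cons]
    by_cases h : x = a
    · subst h
      have hnot : x ∉ L := (List.nodup_cons.1 hL).1
      have h1 : (L.map (fun c => if x = c then B c else 1)).prod = 1 := by
        apply List.prod_eq_one
        intro g hg
        obtain ⟨y, hy, rfl⟩ := List.mem_map.1 hg
        have : x ≠ y := fun h => hnot (h ▸ hy)
        simp [this]
      rw [h1]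
      simp
    · have hxL : x ∈ L := by
        rcases List.mem_cons.1 hx with h2 | h2
        · exact absurd h2 h
        · exact h2
      rw [ih (List.nodup_cons.1 hL).2 hxL]
      simp [h]

/-- The word value is the product of the weights times the section. -/
theorem word_eq (L w : List α) :
    (w.map φ).prod = acnt (fun pre x => gw φ L pre * φ x * (gw φ L (pre ++ [x]))⁻¹) w * gw φ L w := by
  induction w using List.reverseRecOn with
  | nil => simp [gw_word_nil]
  | append_singleton w x ih =>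
    rw [acnt_snoc, List.map_append, List.prod_append, ih]
    simp only [List.map_cons, List.map_nil, List.prod_cons, List.prod_nil, mul_one]
    group

/-- The weight of a letter in the list, as a conjugated commutator. -/
theorem weight_eq {L1 L2 : List α} {c : α} (h1 : c ∉ L1) (h2 : c ∉ L2) (pre : List α) :
    gw φ (L1 ++ c :: L2) pre * φ c * (gw φ (L1 ++ c :: L2) (pre ++ [c]))⁻¹ =
      gw φ (L1 ++ [c]) pre * ⁅gw φ L2 pre, φ c⁆ * (gw φ (L1 ++ [c]) pre)⁻¹ := by
  rw [gw_append, gw_append, gw_cons, gw_cons, gw_append, gw_cons, gw_snoc_notin φ h1,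
    gw_snoc_notin φ h2, gw_nil, vc_snoc]
  simp only [if_true, pow_succ, mul_one]
  generalize φ c ^ vc c pre = u
  simp only [commutatorElement_def]
  group

variable [Finite α] [Finite G] {A : Subgroup G}

/-- The mixed factors. -/
theorem ra_E (hcomm : ∀ a ∈ A, ∀ b ∈ A, a * b = b * a)
    (hC : ∀ g h : G, ⁅g, h⁆ ∈ A) (hZ : ∀ a ∈ A, ∀ g h : G, Commute h ⁅g, a⁆)
    (c l : α) {a : G} (ha : a ∈ A) (L1 : List α) (hl : l ∉ L1) :
    RaG A (fun pre x => if x = c then ⁅gw φ L1 pre, a⁆ ^ (vc l pre) else 1) := by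
  induction L1 with
  | nil =>
    refine raG_congr (fun pre x => ?_) (raG_one A)
    by_cases hx : x = c <;> simp [hx]
  | cons y L1 ih =>
    have hy : y ≠ l := fun h => hl (by simp [h])
    have hl' : l ∉ L1 := fun h => hl (by simp [h])
    refine raG_congr (fun pre x => ?_)
      (raG_mul hcomm (raG_if (hC (φ y) a) (rg_E3 c y l hy)) (ih hl'))
    by_cases hx : x = c
    · simp only [hx, if_true, gw_cons]
      rw [kap_mul hZ ha, kap_pow hZ ha, zpow_natCast, pow_mul]
      exact (Commute.mul_pow (hZ a ha (gw φ L1 pre) _) _).symm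
    · simp [hx]

/-- One factor of the collection is resolved. -/
theorem ra_D (hcomm : ∀ a ∈ A, ∀ b ∈ A, a * b = b * a)
    (hC : ∀ g h : G, ⁅g, h⁆ ∈ A) (hZ : ∀ a ∈ A, ∀ g h : G, Commute h ⁅g, a⁆)
    (c l : α) (L1 : List α) (hl : l ∉ L1) :
    RaG A (fun pre x => if x = c then
      gw φ L1 pre * ⁅φ l ^ (vc l pre), φ c⁆ * (gw φ L1 pre)⁻¹ else 1) := by
  refine raG_congr (fun pre x => ?_)
    (raG_mul hcomm (raG_mul hcomm (raG_if (hC (φ l) (φ c)) (rg_E1 c l))
      (raG_if (hC (φ l) ⁅φ l, φ c⁆) (rg_E2 c l)))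
      (ra_E φ hcomm hC hZ c l (hC (φ l) (φ c)) L1 hl))
  by_cases hx : x = c
  · simp only [hx, if_true]
    rw [one_factor hZ hC, zpow_natCast, zpow_natCast]
  · simp [hx]

/-- The conjugated commutator with a whole section is resolved. -/
theorem ra_C (hcomm : ∀ a ∈ A, ∀ b ∈ A, a * b = b * a)
    (hC : ∀ g h : G, ⁅g, h⁆ ∈ A) (hZ : ∀ a ∈ A, ∀ g h : G, Commute h ⁅g, a⁆)
    (c : α) (L2 : List α) (L1 : List α) (h1 : ∀ l ∈ L2, l ∉ L1) (h2 : L2.Nodup) :
    RaG A (fun pre x => if x = c then
      gw φ L1 pre * ⁅gw φ L2 pre, φ c⁆ * (gw φ L1 pre)⁻¹ else 1) := by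
  induction L2 generalizing L1 with
  | nil =>
    refine raG_congr (fun pre x => ?_) (raG_one A)
    by_cases hx : x = c <;> simp [hx]
  | cons l L2 ih =>
    have hl : l ∉ L1 := h1 l (by simp)
    have hnd := List.nodup_cons.1 h2
    have h1' : ∀ l' ∈ L2, l' ∉ L1 ++ [l] := by
      intro l' hl'
      simp only [List.mem_append, List.mem_singleton, not_or]
      exact ⟨h1 l' (by simp [hl']), fun h => hnd.1 (h ▸ hl')⟩
    refine raG_congr (fun pre x => ?_)
      (raG_mul hcomm (ih (L1 ++ [l]) h1' hnd.2) (ra_D φ hcomm hC hZ c l L1 hl))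
    by_cases hx : x = c
    · simp only [hx, if_true]
      rw [gw_append, gw_cons, gw_cons, gw_nil, mul_one]
      generalize gw φ L1 pre = P
      generalize φ l ^ vc l pre = t
      generalize gw φ L2 pre = T
      generalize φ c = z
      simp only [commutatorElement_def]
      group
    · simp [hx]

/-- Words in a finite group with the class three structure are resolved. -/
theorem res_word_three (hcomm : ∀ a ∈ A, ∀ b ∈ A, a * b = b * a)
    (hC : ∀ g h : G, ⁅g, h⁆ ∈ A) (hZ : ∀ a ∈ A, ∀ g h : G, Commute h ⁅g, a⁆) :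
    Res (fun w : List α => (w.map φ).prod) := by
  haveI := Fintype.ofFinite α
  set L : List α := (Finset.univ : Finset α).toList with hL
  have hnd : L.Nodup := Finset.nodup_toList _
  have hmem : ∀ x, x ∈ L := fun x => by simp [hL]
  -- each letter
  have h1 : ∀ c : α, RaG A (fun pre x => if x = c then
      gw φ L pre * φ c * (gw φ L (pre ++ [c]))⁻¹ else 1) := by
    intro c
    obtain ⟨L1, L2, hs⟩ := List.append_of_mem (hmem c)
    rw [hs] at hnd ⊢
    have h3 : c ∉ L1 := by
      intro h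
      have := List.nodup_append.1 hnd
      exact this.2.2 c h c (by simp) rfl
    have h4 : c ∉ L2 := by
      have := List.nodup_append.1 hnd
      exact (List.nodup_cons.1 this.2.1).1
    have h5 : ∀ l ∈ L2, l ∉ L1 ++ [c] := by
      intro l hl
      have := List.nodup_append.1 hnd
      simp only [List.mem_append, List.mem_singleton, not_or]
      exact ⟨fun h => this.2.2 l h l (by simp [hl]) rfl, fun h => h4 (h ▸ hl)⟩
    have h6 : L2.Nodup := (List.nodup_cons.1 (List.nodup_append.1 hnd).2.1).2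
    refine raG_congr (fun pre x => ?_) (ra_C φ hcomm hC hZ c L2 (L1 ++ [c]) h5 h6)
    by_cases hx : x = c
    · simp only [hx, if_true]
      rw [weight_eq φ h3 h4]
    · simp [hx]
  -- all letters
  have h2 : ∀ L' : List α, RaG A (fun pre x =>
      (L'.map (fun c => if x = c then gw φ L pre * φ c * (gw φ L (pre ++ [c]))⁻¹ else 1)).prod) := by
    intro L'
    induction L' with
    | nil => exact raG_congr (fun _ _ => by simp) (raG_one A)
    | cons c L' ih =>
      refine raG_congr (fun pre x => ?_) (raG_mul hcomm (h1 c) ih)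
      simp
  have h3 : RaG A (fun pre x => gw φ L pre * φ x * (gw φ L (pre ++ [x]))⁻¹) :=
    raG_congr (fun pre x => prod_if (fun c => gw φ L pre * φ c * (gw φ L (pre ++ [c]))⁻¹) x hnd
      (hmem x)) (h2 L)
  -- the section
  have hcard : Nat.card G ≠ 0 := Nat.card_pos.ne'
  haveI := finite_zmod hcard
  have h4 : Res (fun w : List α => fun y : α => (((vc y w : ℤ) : ℤ) : ZMod (Nat.card G))) :=
    res_pi (fun y => rf_vc y _ hcard)
  refine res_factor (res_pair h3.2 h4) (fun w w' H => ?_)
  simp only [Prod.mk.injEq] at H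
  obtain ⟨H1, H2⟩ := H
  show (w.map φ).prod = (w'.map φ).prod
  rw [word_eq φ L w, word_eq φ L w', H1]
  congr 1
  unfold gw
  congr 1
  apply List.map_congr_left
  intro y _
  have h5 := congrFun H2 y
  have h6 := zpow_eq_of_cast (φ y) h5
  simpa only [zpow_natCast] using h6

end Word

/-- **Main theorem.** Languages recognized by a finite group of nilpotency class at most three
have generalized star height at most one. -/
theorem gsh_class_three {α G : Type} [Finite α] [Group G] [Finite G]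
    (hG : (⊤ : Subgroup G).lowerCentralSeries 3 = ⊥) (φ : α → G) (S : Set G) :
    GSHLe 1 {w : List α | (w.map φ).prod ∈ S} := by
  set Γ1 := (⊤ : Subgroup G).lowerCentralSeries 1 with hΓ1
  set Γ2 := (⊤ : Subgroup G).lowerCentralSeries 2 with hΓ2
  have h12 : Γ2 = ⁅Γ1, (⊤ : Subgroup G)⁆ := rfl
  have h23 : ⁅Γ2, (⊤ : Subgroup G)⁆ = ⊥ := hG
  have hC : ∀ g h : G, ⁅g, h⁆ ∈ Γ1 := fun g h =>
    Subgroup.commutator_mem_commutator (Subgroup.mem_top g) (Subgroup.mem_top h)
  have hZ : ∀ a ∈ Γ1, ∀ g h : G, Commute h ⁅g, a⁆ := by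
    intro a ha g h
    have h1 : ⁅a, g⁆ ∈ Γ2 := by
      rw [h12]
      exact Subgroup.commutator_mem_commutator ha (Subgroup.mem_top g)
    have h2 : ⁅g, a⁆ ∈ Γ2 := by
      rw [← commutatorElement_inv]
      exact Γ2.inv_mem h1
    have h3 : ⁅⁅g, a⁆, h⁆ ∈ ⁅Γ2, (⊤ : Subgroup G)⁆ :=
      Subgroup.commutator_mem_commutator h2 (Subgroup.mem_top h)
    rw [h23, Subgroup.mem_bot] at h3
    exact (commutatorElement_eq_one_iff_commute.1 h3).symm
  have hbot : ⁅⁅(⊤ : Subgroup G), (⊤ : Subgroup G)⁆, Γ1⁆ = ⊥ := by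
    apply Subgroup.commutator_commutator_eq_bot_of_rotate
    · rw [Subgroup.commutator_comm (⊤ : Subgroup G) Γ1, ← h12]
      exact h23
    · rw [← h12]
      exact h23
  have hcomm : ∀ a ∈ Γ1, ∀ b ∈ Γ1, a * b = b * a := by
    intro a ha b hb
    have h3 : ⁅a, b⁆ ∈ ⁅⁅(⊤ : Subgroup G), (⊤ : Subgroup G)⁆, Γ1⁆ :=
      Subgroup.commutator_mem_commutator ha hb
    rw [hbot, Subgroup.mem_bot] at h3
    exact commutatorElement_eq_one_iff_mul_comm.1 h3
  exact res_mem (res_word_three φ hcomm hC hZ) S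

end

end Vale.Agent.Lib.P329
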