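import Vale.Agent.Lib.P329.Defs
import Mathlib.Data.Fintype.Basic
import Mathlib.Data.Fintype.EquivFin

open Computability

namespace Vale.Agent.Lib.P329

open GRE

variable {α : Type} {k : ℕ} {L M : Language α}

theorem gsh_congr (h : ∀ w, w ∈ L ↔ w ∈ M) (hL : GSHLe k L) : GSHLe k M := by
  have : L = M := by
    apply Set.ext
    exact h
  rwa [← this]

theorem gsh_mono {j : ℕ} (hjk : j ≤ k) (hL : GSHLe j L) : GSHLe k L := by
  obtain ⟨e, he, rfl⟩ := hL
  exact ⟨e, le_trans he hjk, rfl⟩

theorem gsh_zero : GSHLe k (0 : Language α) := ⟨.zero, by simp [height], rfl⟩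

theorem gsh_one : GSHLe k (1 : Language α) := ⟨.one, by simp [height], rfl⟩

theorem gsh_letter (a : α) : GSHLe k ({[a]} : Language α) := ⟨.letter a, by simp [height], rfl⟩

theorem gsh_add (hL : GSHLe k L) (hM : GSHLe k M) : GSHLe k (L + M) := by
  obtain ⟨e, he, rfl⟩ := hL
  obtain ⟨f, hf, rfl⟩ := hM
  exact ⟨.add e f, by simp [height, he, hf], rfl⟩

theorem gsh_mul (hL : GSHLe k L) (hM : GSHLe k M) : GSHLe k (L * M) := by
  obtain ⟨e, he, rfl⟩ := hL
  obtain ⟨f, hf, rfl⟩ := hM
  exact ⟨.mul e f, by simp [height, he, hf], rfl⟩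

theorem gsh_compl (hL : GSHLe k L) : GSHLe k (Lᶜ) := by
  obtain ⟨e, he, rfl⟩ := hL
  exact ⟨.compl e, by simpa [height] using he, rfl⟩

theorem gsh_star (hL : GSHLe k L) : GSHLe (k + 1) (L∗) := by
  obtain ⟨e, he, rfl⟩ := hL
  exact ⟨.star e, by simpa [height] using he, rfl⟩

/-! Predicate-style closure lemmas: languages written as set-builders. -/

/-- Language of a predicate on words. -/
def lang (P : List α → Prop) : Language α := {w | P w}

theorem mem_lang {P : List α → Prop} {w : List α} : w ∈ lang P ↔ P w := Iff.rfl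

theorem gsh_lang_congr {P R : List α → Prop} (h : ∀ w, P w ↔ R w) (hP : GSHLe k (lang P)) :
    GSHLe k (lang R) :=
  gsh_congr (fun w => by simpa [mem_lang] using h w) hP

theorem gsh_false : GSHLe k (lang (fun _ : List α => False)) :=
  gsh_congr (fun w => by
    constructor
    · intro h; exact absurd h (by simp [Language.notMem_zero])
    · intro h; exact h.elim) gsh_zero

theorem gsh_nil : GSHLe k (lang (fun w : List α => w = [])) :=
  gsh_congr (fun w => by
    rw [Language.mem_one, mem_lang]) gsh_one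

theorem gsh_word_letter (a : α) : GSHLe k (lang (fun w : List α => w = [a])) :=
  gsh_congr (fun w => by
    rw [mem_lang]
    exact Iff.rfl) (gsh_letter a)

theorem gsh_not {P : List α → Prop} (h : GSHLe k (lang P)) : GSHLe k (lang (fun w => ¬ P w)) :=
  gsh_congr (fun w => Iff.rfl) (gsh_compl h)

theorem gsh_true : GSHLe k (lang (fun _ : List α => True)) :=
  gsh_lang_congr (fun w => by simp) (gsh_not (gsh_false (k := k)))

theorem gsh_or {P R : List α → Prop} (h1 : GSHLe k (lang P)) (h2 : GSHLe k (lang R)) :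
    GSHLe k (lang (fun w => P w ∨ R w)) :=
  gsh_congr (fun w => by
    rw [Language.mem_add]; exact Iff.rfl) (gsh_add h1 h2)

theorem gsh_and {P R : List α → Prop} (h1 : GSHLe k (lang P)) (h2 : GSHLe k (lang R)) :
    GSHLe k (lang (fun w => P w ∧ R w)) :=
  gsh_lang_congr (fun w => by tauto) (gsh_not (gsh_or (gsh_not h1) (gsh_not h2)))

theorem gsh_append {P R : List α → Prop} (h1 : GSHLe k (lang P)) (h2 : GSHLe k (lang R)) :
    GSHLe k (lang (fun w => ∃ u v, P u ∧ R v ∧ w = u ++ v)) :=
  gsh_congr (fun w => by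
    rw [Language.mem_mul, mem_lang]
    constructor
    · rintro ⟨u, hu, v, hv, rfl⟩; exact ⟨u, v, hu, hv, rfl⟩
    · rintro ⟨u, v, hu, hv, rfl⟩; exact ⟨u, hu, v, hv, rfl⟩) (gsh_mul h1 h2)

theorem gsh_exists_finset {ι : Type} (s : Finset ι) {P : ι → List α → Prop}
    (h : ∀ i, GSHLe k (lang (P i))) : GSHLe k (lang (fun w => ∃ i ∈ s, P i w)) := by
  classical
  induction s using Finset.induction_on with
  | empty => exact gsh_lang_congr (fun w => by simp) (gsh_false (k := k))
  | insert a s _ ih =>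
    refine gsh_lang_congr (fun w => ?_) (gsh_or (h a) ih)
    simp [Finset.mem_insert]

theorem gsh_exists {ι : Type} [Finite ι] {P : ι → List α → Prop}
    (h : ∀ i, GSHLe k (lang (P i))) : GSHLe k (lang (fun w => ∃ i, P i w)) := by
  classical
  haveI := Fintype.ofFinite ι
  exact gsh_lang_congr (fun w => by simp) (gsh_exists_finset Finset.univ h)

theorem gsh_forall {ι : Type} [Finite ι] {P : ι → List α → Prop}
    (h : ∀ i, GSHLe k (lang (P i))) : GSHLe k (lang (fun w => ∀ i, P i w)) := by
  refine gsh_lang_congr (fun w => ?_)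
    (gsh_not (gsh_exists (P := fun i w => ¬ P i w) (fun i => gsh_not (h i))))
  simp

/-- Words all of whose letters lie in `s`, over a finite alphabet. -/
theorem gsh_allin [Finite α] (s : α → Prop) : GSHLe k (lang (fun w : List α => ∀ b ∈ w, s b)) := by
  classical
  -- complement of: exists a letter outside `s`.
  have h1 : GSHLe k (lang (fun w : List α =>
      ∃ b : {b : α // ¬ s b}, ∃ u v, (∃ u' v', True ∧ (v' = [b.1]) ∧ u = u' ++ v') ∧ True ∧ w = u ++ v)) := by
    refine gsh_exists (fun b => ?_)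
    exact gsh_append (gsh_append gsh_true (gsh_word_letter b.1)) gsh_true
  refine gsh_lang_congr (fun w => ?_) (gsh_not h1)
  constructor
  · intro h b hb
    by_contra hs
    obtain ⟨u, v, rfl⟩ := List.append_of_mem hb
    exact h ⟨⟨b, hs⟩, u ++ [b], v, ⟨u, [b], trivial, rfl, rfl⟩, trivial, by simp⟩
  · rintro h ⟨b, u, v, ⟨u', v', -, rfl, rfl⟩, -, rfl⟩
    exact b.2 (h b.1 (by simp))

end Vale.Agent.Lib.P329
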