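import Vale.Agent.Lib.P329.Good
import Mathlib.Data.ZMod.Basic
import Mathlib.Algebra.BigOperators.Group.Finset.Basic
import Mathlib.Algebra.BigOperators.Group.List.Basic
import Mathlib.Data.ZMod.Units
import Mathlib.Algebra.Field.ZMod
import Mathlib.Tactic.Ring
import Mathlib.Tactic.FieldSimp
import Mathlib.Tactic.Linarith
import Mathlib.Tactic.Zify

open Computability

namespace Vale.Agent.Lib.P329

noncomputable section

open scoped Classical

section Cnt

variable {α : Type}

/-- Weighted count of positions: sum of `g pre x` over all decompositions `w = pre ++ x :: suf`. -/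
def cntFrom (g : List α → α → ℤ) : List α → List α → ℤ
  | _, [] => 0
  | pre, x :: w => g pre x + cntFrom g (pre ++ [x]) w

/-- Weighted count of positions. -/
def cnt (g : List α → α → ℤ) (w : List α) : ℤ := cntFrom g [] w

theorem cntFrom_snoc (g : List α → α → ℤ) (w pre : List α) (x : α) :
    cntFrom g pre (w ++ [x]) = cntFrom g pre w + g (pre ++ w) x := by
  induction w generalizing pre with
  | nil => simp [cntFrom]
  | cons a w ih =>
    simp only [List.cons_append, cntFrom]
    rw [ih, add_assoc]
    simp

@[simp] theorem cnt_nil (g : List α → α → ℤ) : cnt g [] = 0 := rfl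

theorem cnt_snoc (g : List α → α → ℤ) (w : List α) (x : α) :
    cnt g (w ++ [x]) = cnt g w + g w x := by
  simpa [cnt] using cntFrom_snoc g w [] x

theorem cnt_add (g h : List α → α → ℤ) (w : List α) :
    cnt (fun pre x => g pre x + h pre x) w = cnt g w + cnt h w := by
  induction w using List.reverseRecOn with
  | nil => simp
  | append_singleton w x ih =>
    simp only [cnt_snoc, ih]
    ring

theorem cnt_mul (a : ℤ) (g : List α → α → ℤ) (w : List α) :
    cnt (fun pre x => a * g pre x) w = a * cnt g w := by
  induction w using List.reverseRecOn with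
  | nil => simp
  | append_singleton w x ih =>
    simp only [cnt_snoc, ih]
    ring

theorem cnt_congr {g h : List α → α → ℤ} (H : ∀ pre x, g pre x = h pre x) (w : List α) :
    cnt g w = cnt h w := by
  induction w using List.reverseRecOn with
  | nil => simp
  | append_singleton w x ih =>
    simp only [cnt_snoc, ih, H]

theorem cnt_tele (F : List α → ℤ) (w : List α) :
    cnt (fun pre x => F (pre ++ [x]) - F pre) w = F w - F [] := by
  induction w using List.reverseRecOn with
  | nil => simp
  | append_singleton w x ih =>
    simp only [cnt_snoc, ih]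
    ring

/-- `g` is resolved if its weighted counts modulo every positive integer are resolved. -/
def Rg (g : List α → α → ℤ) : Prop :=
  ∀ m : ℕ, m ≠ 0 → Res (fun w => ((cnt g w : ℤ) : ZMod m))

theorem finite_zmod {m : ℕ} (hm : m ≠ 0) : Finite (ZMod m) := by
  haveI : NeZero m := ⟨hm⟩
  infer_instance

theorem rg_congr {g h : List α → α → ℤ} (H : ∀ pre x, g pre x = h pre x) (hg : Rg g) : Rg h := by
  intro m hm c
  refine gsh_lang_congr (fun w => ?_) (hg m hm c)
  simp only [cnt_congr H]

theorem rg_add {g h : List α → α → ℤ} (hg : Rg g) (hh : Rg h) :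
    Rg (fun pre x => g pre x + h pre x) := by
  intro m hm
  haveI := finite_zmod hm
  refine res_factor (res_pair (hg m hm) (hh m hm)) (fun w w' H => ?_)
  simp only [Prod.mk.injEq] at H
  simp only [cnt_add, Int.cast_add, H.1, H.2]

theorem rg_mul (a : ℤ) {g : List α → α → ℤ} (hg : Rg g) :
    Rg (fun pre x => a * g pre x) := by
  intro m hm
  haveI := finite_zmod hm
  refine res_factor (hg m hm) (fun w w' H => ?_)
  simp only [cnt_mul, Int.cast_mul, H]

theorem rg_zero : Rg (fun (_ : List α) (_ : α) => (0 : ℤ)) := by
  intro m hm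
  haveI := finite_zmod hm
  have h0 : ∀ w : List α, cnt (fun _ _ => (0 : ℤ)) w = 0 := by
    intro w
    have := cnt_mul (0 : ℤ) (fun _ _ => (0 : ℤ)) w
    simpa using this
  intro c
  by_cases hc : ((0 : ℤ) : ZMod m) = c
  · exact gsh_lang_congr (fun w => by simp [h0 w] at hc ⊢; exact hc) (gsh_true (k := 1))
  · exact gsh_lang_congr (fun w => by simp [h0 w] at hc ⊢; exact hc) (gsh_false (k := 1))

theorem rg_neg {g : List α → α → ℤ} (hg : Rg g) : Rg (fun pre x => - g pre x) :=
  rg_congr (fun pre x => by ring) (rg_mul (-1) hg)

theorem rg_sub {g h : List α → α → ℤ} (hg : Rg g) (hh : Rg h) :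
    Rg (fun pre x => g pre x - h pre x) :=
  rg_congr (fun pre x => by ring) (rg_add hg (rg_neg hh))

theorem rg_sum {ι : Type} (s : Finset ι) {g : ι → List α → α → ℤ} (hg : ∀ i ∈ s, Rg (g i)) :
    Rg (fun pre x => ∑ i ∈ s, g i pre x) := by
  induction s using Finset.induction_on with
  | empty => exact rg_congr (fun pre x => by simp) rg_zero
  | insert a s ha ih =>
    refine rg_congr (fun pre x => ?_) (rg_add (hg a (by simp))
      (ih (fun i hi => hg i (by simp [hi]))))
    rw [Finset.sum_insert ha]

/-- One may divide by a nonzero integer. -/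
theorem rg_of_mul {D : ℤ} (hD : D ≠ 0) {g : List α → α → ℤ}
    (h : Rg (fun pre x => D * g pre x)) : Rg g := by
  intro m hm
  have hDm : D.natAbs * m ≠ 0 := Nat.mul_ne_zero (by simpa using hD) hm
  haveI := finite_zmod hDm
  refine res_factor (h _ hDm) (fun w w' H => ?_)
  simp only [cnt_mul] at H
  rw [ZMod.intCast_eq_intCast_iff_dvd_sub] at H ⊢
  have h2 : ((D.natAbs * m : ℕ) : ℤ) = |D| * m := by
    push_cast
    simp
  rw [h2] at H
  have h3 : (|D| : ℤ) ∣ D := (abs_dvd D D).2 dvd_rfl
  have h4 : D * cnt g w' - D * cnt g w = |D| * ((D / |D|) * (cnt g w' - cnt g w)) := by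
    have : |D| * (D / |D|) = D := Int.mul_ediv_cancel' h3
    calc D * cnt g w' - D * cnt g w = D * (cnt g w' - cnt g w) := by ring
      _ = (|D| * (D / |D|)) * (cnt g w' - cnt g w) := by rw [this]
      _ = _ := by ring
  rw [h4] at H
  have hDabs : (|D| : ℤ) ≠ 0 := abs_ne_zero.2 hD
  have h5 := (mul_dvd_mul_iff_left hDabs).1 H
  have hunit : (D / |D|) = 1 ∨ (D / |D|) = -1 := by
    rcases abs_choice D with h | h
    · left; rw [h]; exact Int.ediv_self hD
    · right; rw [h]; simp [Int.ediv_neg, Int.ediv_self hD]
  rcases hunit with hu | hu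
  · rw [hu] at h5; simpa using h5
  · rw [hu] at h5
    have : (m : ℤ) ∣ -(-1 * (cnt g w' - cnt g w)) := (dvd_neg).2 h5
    simpa using this

/-- Telescoping sums of resolved finite-valued functions are resolved. -/
theorem rg_tele {X : Type} [Finite X] {σ : List α → X} (hσ : Res σ) (Ψ : X → ℤ) :
    Rg (fun pre x => Ψ (σ (pre ++ [x])) - Ψ (σ pre)) := by
  intro m hm
  haveI := finite_zmod hm
  refine res_factor hσ (fun w w' H => ?_)
  have := cnt_tele (fun pre => Ψ (σ pre)) w
  have h' := cnt_tele (fun pre => Ψ (σ pre)) w'
  rw [this, h', H]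

end Cnt

section Auto

variable {α : Type} {p m : ℕ} [Fact p.Prime] [NeZero m]

/-- The increment condition of the counting automaton. -/
def IncP (lam : α → ZMod p) (P : Option α → α → Prop) (N : α → Prop)
    (t : ZMod p) (l : Option α) (x : α) : Prop :=
  (lam x ≠ 0 ∧ t + lam x = 0 ∧ ¬ P l x) ∨ (N x ∧ t = 0)

/-- The last-moving-letter component of the counting automaton. -/
def topL (lam : α → ZMod p) (x : α) (t : ZMod p) (l : Option α) : Option α :=
  if t + lam x = 0 then none else if lam x ≠ 0 then some x else l

/-- The counting automaton. -/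
def stp (m : ℕ) (lam : α → ZMod p) (P : Option α → α → Prop) (N : α → Prop) (x : α)
    (q : ZMod p × ZMod m × Option α) : ZMod p × ZMod m × Option α :=
  (q.1 + lam x, q.2.1 + (if IncP lam P N q.1 q.2.2 x then 1 else 0), topL lam x q.1 q.2.2)

/-- Last moving letter of a word, with default `l`. -/
def lastOr (lam : α → ZMod p) (w : List α) (l : Option α) : Option α :=
  w.foldl (fun acc x => if lam x ≠ 0 then some x else acc) l

theorem lastOr_snoc (lam : α → ZMod p) (w : List α) (x : α) (l : Option α) :
    lastOr lam (w ++ [x]) l = if lam x ≠ 0 then some x else lastOr lam w l := by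
  simp [lastOr, List.foldl_append]

theorem lastOr_idem (lam : α → ZMod p) (w : List α) (l : Option α) :
    lastOr lam w (lastOr lam w l) = lastOr lam w l := by
  induction w using List.reverseRecOn with
  | nil => rfl
  | append_singleton w x ih =>
    rw [lastOr_snoc, lastOr_snoc]
    by_cases h : lam x ≠ 0
    · simp [h]
    · simp only [h, if_false]
      exact ih

theorem lastOr_of_all (lam : α → ZMod p) (d : α) (v : List α) (l : Option α)
    (h1 : ∃ e ∈ v, lam e ≠ 0) (h2 : ∀ e ∈ v, lam e ≠ 0 → e = d) : lastOr lam v l = some d := by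
  induction v using List.reverseRecOn with
  | nil => simp at h1
  | append_singleton w x ih =>
    rw [lastOr_snoc]
    by_cases h : lam x ≠ 0
    · simp only [h, ne_eq, not_false_eq_true, if_true]
      rw [h2 x (by simp) h]
    · simp only [h, if_false]
      refine ih ?_ (fun e he => h2 e (by simp [he]))
      obtain ⟨e, he, he2⟩ := h1
      rcases List.mem_append.1 he with he | he
      · exact ⟨e, he, he2⟩
      · simp only [List.mem_singleton] at he
        subst he
        exact absurd he2 h

variable {lam : α → ZMod p} {P : Option α → α → Prop} {N : α → Prop}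

theorem run_snoc {Q : Type} (T : α → Q → Q) (w : List α) (x : α) (q : Q) :
    run T (w ++ [x]) q = T x (run T w q) := by
  rw [run_append]
  rfl

theorem run_t (w : List α) (q : ZMod p × ZMod m × Option α) :
    (run (stp m lam P N) w q).1 = q.1 + (w.map lam).sum := by
  induction w using List.reverseRecOn with
  | nil => simp [run]
  | append_singleton w x ih =>
    rw [run_snoc]
    simp only [stp, ih, List.map_append, List.sum_append, List.map_cons, List.map_nil,
      List.sum_cons, List.sum_nil, add_zero, add_assoc]

theorem run_l (w : List α) (q : ZMod p × ZMod m × Option α) :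
    (run (stp m lam P N) w q).2.2 =
      if w = [] then q.2.2 else
        if q.1 + (w.map lam).sum = 0 then none else lastOr lam w q.2.2 := by
  induction w using List.reverseRecOn with
  | nil => simp [run]
  | append_singleton w x ih =>
    rw [run_snoc]
    have hne : w ++ [x] ≠ [] := by simp
    rw [if_neg hne]
    simp only [stp, topL, List.map_append, List.sum_append, List.map_cons, List.map_nil,
      List.sum_cons, List.sum_nil, add_zero, run_t, ← add_assoc]
    rw [lastOr_snoc, ih]
    by_cases h0 : q.1 + (w.map lam).sum + lam x = 0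
    · simp [h0]
    · simp only [h0, if_false]
      by_cases hm : lam x ≠ 0
      · simp [hm]
      · simp only [hm, if_false]
        have hm' : lam x = 0 := by simpa using hm
        rw [hm', add_zero] at h0
        by_cases hw : w = []
        · subst hw; simp [lastOr]
        · simp [hw, h0]

/-- The base state of the counting automaton. -/
def base0 (p m : ℕ) (α : Type) : ZMod p × ZMod m × Option α := (0, 0, none)

theorem val_succ_of_ne (y : ZMod m) (h : y + 1 ≠ 0) : (y + 1).val = y.val + 1 := by
  have hlt := ZMod.val_lt y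
  by_cases h2 : y.val + 1 < m
  · rw [ZMod.val_add, ZMod.val_one_eq_one_mod]
    rcases Nat.lt_or_ge 1 m with h3 | h3
    · rw [Nat.mod_eq_of_lt h3, Nat.mod_eq_of_lt h2]
    · omega
  · exfalso
    apply h
    have h3 : y.val + 1 = m := by omega
    have h4 : ((y.val + 1 : ℕ) : ZMod m) = 0 := by
      rw [h3]; exact ZMod.natCast_self m
    rw [Nat.cast_add, ZMod.natCast_zmod_val, Nat.cast_one] at h4
    exact h4

variable (hN : ∀ x, N x → lam x = 0)

include hN in
theorem step_val (x : α) (q : ZMod p × ZMod m × Option α)
    (h : stp m lam P N x q ≠ base0 p m α) :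
    q.2.1.val ≤ (stp m lam P N x q).2.1.val ∧
      (IncP lam P N q.1 q.2.2 x → q.2.1.val < (stp m lam P N x q).2.1.val) := by
  by_cases hi : IncP lam P N q.1 q.2.2 x
  · have ht : q.1 + lam x = 0 := by
      rcases hi with ⟨_, h2, _⟩ | ⟨h1, h2⟩
      · exact h2
      · rw [hN x h1, h2, add_zero]
    have hne : q.2.1 + 1 ≠ 0 := by
      intro h0
      apply h
      simp only [stp, hi, if_true, topL, ht, h0, base0]
    have hv : (stp m lam P N x q).2.1.val = q.2.1.val + 1 := by
      simp only [stp, hi, if_true]
      exact val_succ_of_ne _ hne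
    rw [hv]
    exact ⟨Nat.le_succ _, fun _ => Nat.lt_succ_self _⟩
  · have hv : (stp m lam P N x q).2.1 = q.2.1 := by
      simp [stp, hi]
    rw [hv]
    exact ⟨le_rfl, fun h => absurd h hi⟩

include hN in
theorem mono_val (v : List α) (q : ZMod p × ZMod m × Option α)
    (h : run (absorb (stp m lam P N) (base0 p m α)) v q ≠ base0 p m α) :
    q.2.1.val ≤ (run (absorb (stp m lam P N) (base0 p m α)) v q).2.1.val := by
  induction v generalizing q with
  | nil => exact le_rfl
  | cons a v ih =>
    simp only [run_cons] at h ⊢
    have hq : q ≠ base0 p m α := by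
      rintro rfl
      apply h
      rw [show absorb (stp m lam P N) (base0 p m α) a (base0 p m α) = base0 p m α by
        simp [absorb]]
      exact absorb_base v
    have hstep : absorb (stp m lam P N) (base0 p m α) a q ≠ base0 p m α := by
      intro h0
      apply h
      rw [h0]
      exact absorb_base v
    rw [absorb_ne a hq] at h hstep ⊢
    exact le_trans (step_val hN a q hstep).1 (ih _ h)

include hN in
/-- No increment can occur on a closed path that avoids the base state. -/
theorem no_inc (v1 : List α) (x : α) (v2 : List α) (q : ZMod p × ZMod m × Option α)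
    (hq : q ≠ base0 p m α)
    (hc : run (absorb (stp m lam P N) (base0 p m α)) (v1 ++ x :: v2) q = q) :
    ¬ IncP lam P N (run (stp m lam P N) v1 q).1 (run (stp m lam P N) v1 q).2.2 x := by
  intro hinc
  rw [run_append, run_cons] at hc
  have hb : absorb (stp m lam P N) (base0 p m α) x
      (run (absorb (stp m lam P N) (base0 p m α)) v1 q) ≠ base0 p m α := by
    intro h0
    rw [h0] at hc
    exact hq ((hc.symm).trans (absorb_base v2))
  have ha : run (absorb (stp m lam P N) (base0 p m α)) v1 q ≠ base0 p m α := by
    intro h0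
    apply hb
    rw [h0]
    simp [absorb]
  have ha' : run (stp m lam P N) v1 q = run (absorb (stp m lam P N) (base0 p m α)) v1 q :=
    run_eq_of_ne v1 q ha
  rw [ha'] at hinc
  have h1 := mono_val hN v1 q ha
  have h3 := mono_val hN v2 _ (by rw [hc]; exact hq)
  rw [hc] at h3
  rw [absorb_ne x ha] at hb h3
  have h2 := (step_val hN x _ hb).2 hinc
  omega

theorem sum_replicate (u : List α) (i : ℕ) :
    (((List.replicate i u).flatten).map lam).sum = (i : ZMod p) * (u.map lam).sum := by
  induction i with
  | zero => simp
  | succ i ih =>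
    rw [List.replicate_succ, List.flatten_cons, List.map_append, List.sum_append, ih]
    push_cast
    ring

theorem iter_ne_base {f : ZMod p × ZMod m × Option α → ZMod p × ZMod m × Option α}
    (hf : f (base0 p m α) = base0 p m α) {q : ZMod p × ZMod m × Option α}
    (hq : q ≠ base0 p m α) {k : ℕ} (hk : 0 < k) (hper : f^[k] q = q) (n : ℕ) :
    f^[n] q ≠ base0 p m α := by
  intro h0
  have h1 : f^[k * n] q = q := by
    rw [Function.iterate_mul]
    exact Function.iterate_fixed hper n
  have hle : n ≤ k * n := Nat.le_mul_of_pos_left n hk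
  have h2 : f^[k * n] q = f^[k * n - n] (f^[n] q) := by
    rw [← Function.iterate_add_apply, Nat.sub_add_cancel hle]
  rw [h2, h0, Function.iterate_fixed hf] at h1
  exact hq h1.symm

theorem exists_pos_mul (s c : ZMod p) (hs : s ≠ 0) : ∃ i : ℕ, 0 < i ∧ c + (i : ZMod p) * s = 0 := by
  haveI : NeZero p := ⟨(Fact.out : p.Prime).ne_zero⟩
  refine ⟨(-c * s⁻¹).val + p, by have := (Fact.out : p.Prime).pos; omega, ?_⟩
  have h1 : s⁻¹ * s = 1 := inv_mul_cancel₀ hs
  rw [Nat.cast_add, ZMod.natCast_zmod_val, ZMod.natCast_self, add_zero, mul_assoc, h1, mul_one,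
    add_neg_cancel]

theorem flatten_split (u pre suf : List α) (x : α) (hu : u = pre ++ x :: suf) (i K' : ℕ) :
    (List.replicate (i + (1 + K')) u).flatten =
      ((List.replicate i u).flatten ++ pre) ++ x :: (suf ++ (List.replicate K' u).flatten) := by
  rw [List.replicate_add, List.flatten_append, List.replicate_add, List.flatten_append]
  have : (List.replicate 1 u).flatten = pre ++ x :: suf := by simp [hu]
  rw [this]
  simp

include hN in
/-- On a closed path avoiding the base state, the displacement of the word vanishes. -/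
theorem sum_zero_of_closed {d : Option α} (hd : ∀ l x, P l x → some x = d ∧ l ≠ d)
    (u : List α) (q : ZMod p × ZMod m × Option α) (k : ℕ) (hk : 0 < k)
    (hq : q ≠ base0 p m α)
    (hper : (run (absorb (stp m lam P N) (base0 p m α)) u)^[k] q = q) :
    (u.map lam).sum = 0 := by
  by_contra hs
  have hex : ∃ x ∈ u, lam x ≠ 0 ∧ (some x ≠ d ∨ ∀ e ∈ u, lam e ≠ 0 → some e = d) := by
    by_cases h1 : ∃ e ∈ u, lam e ≠ 0 ∧ some e ≠ d
    · obtain ⟨e, he, h2, h3⟩ := h1
      exact ⟨e, he, h2, Or.inl h3⟩
    · have h2 : ∀ e ∈ u, lam e ≠ 0 → some e = d := by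
        intro e he h3
        by_contra h4
        exact h1 ⟨e, he, h3, h4⟩
      have h3 : ∃ e ∈ u, lam e ≠ 0 := by
        by_contra h4
        apply hs
        apply List.sum_eq_zero
        intro y hy
        obtain ⟨e, he, rfl⟩ := List.mem_map.1 hy
        by_contra h5
        exact h4 ⟨e, he, h5⟩
      obtain ⟨e, he, h4⟩ := h3
      exact ⟨e, he, h4, Or.inr h2⟩
  obtain ⟨x, hxu, hxm, hxd⟩ := hex
  obtain ⟨pre, suf, hu⟩ := List.append_of_mem hxu
  obtain ⟨i, hipos, hcast⟩ := exists_pos_mul (u.map lam).sum
    (q.1 + (pre.map lam).sum + lam x) hs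
  -- the closed word
  have hKret : run (absorb (stp m lam P N) (base0 p m α))
      (List.replicate (k * (i + 1)) u).flatten q = q := by
    rw [← iterate_eq_run_pow, Function.iterate_mul]
    exact Function.iterate_fixed hper _
  have hKi : i + 1 ≤ k * (i + 1) := Nat.le_mul_of_pos_left _ hk
  obtain ⟨K', hK'⟩ : ∃ K', k * (i + 1) = i + (1 + K') :=
    ⟨k * (i + 1) - (i + 1), by omega⟩
  rw [hK', flatten_split u pre suf x hu] at hKret
  have hnoinc := no_inc hN _ x _ q hq hKret
  apply hnoinc
  have htv1 : (run (stp m lam P N) ((List.replicate i u).flatten ++ pre) q).1 + lam x = 0 := by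
    rw [run_t, List.map_append, List.sum_append, sum_replicate, ← hcast]
    ring
  refine Or.inl ⟨hxm, htv1, ?_⟩
  intro hPl
  obtain ⟨h1, h2⟩ := hd _ _ hPl
  rcases hxd with hxd | hxd
  · exact hxd h1
  · subst h1
    apply h2
    rw [run_l]
    obtain ⟨j, hj⟩ : ∃ j, i = j + 1 := ⟨i - 1, by omega⟩
    have hxmem : x ∈ (List.replicate i u).flatten := by
      rw [hj, List.replicate_succ, List.flatten_cons]
      exact List.mem_append_left _ hxu
    have hv1ne : (List.replicate i u).flatten ++ pre ≠ [] := by
      intro h
      rw [(List.append_eq_nil_iff.1 h).1] at hxmem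
      simp at hxmem
    have hv1t : q.1 + (((List.replicate i u).flatten ++ pre).map lam).sum ≠ 0 := by
      intro h
      rw [run_t, h, zero_add] at htv1
      exact hxm htv1
    rw [if_neg hv1ne, if_neg hv1t]
    apply lastOr_of_all
    · exact ⟨x, List.mem_append_left _ hxmem, hxm⟩
    · intro e he h4
      apply Option.some.inj
      apply hxd e ?_ h4
      rcases List.mem_append.1 he with he | he
      · obtain ⟨l', hl', hel'⟩ := List.mem_flatten.1 he
        rw [List.eq_of_mem_replicate hl'] at hel'
        exact hel'
      · rw [hu]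
        simp [he]

include hN in
/-- Aperiodicity of the counting automaton with absorbing base. -/
theorem aper_stp (hP : ∃ d : Option α, ∀ l x, P l x → some x = d ∧ l ≠ d) [Finite α] :
    Aper (absorb (stp m lam P N) (base0 p m α)) := by
  haveI : NeZero p := ⟨(Fact.out : p.Prime).ne_zero⟩
  apply aper_of_fixed
  intro u q k hk hper
  obtain ⟨d, hd⟩ := hP
  by_cases hq : q = base0 p m α
  · subst hq
    exact absorb_base u
  have hf0 : run (absorb (stp m lam P N) (base0 p m α)) u (base0 p m α) = base0 p m α :=
    absorb_base u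
  have hne : ∀ n, (run (absorb (stp m lam P N) (base0 p m α)) u)^[n] q ≠ base0 p m α :=
    fun n => iter_ne_base hf0 hq hk hper n
  have hs : (u.map lam).sum = 0 := sum_zero_of_closed hN hd u q k hk hq hper
  have hq1 : run (absorb (stp m lam P N) (base0 p m α)) u q ≠ base0 p m α := hne 1
  have hiter : ∀ n, ((run (absorb (stp m lam P N) (base0 p m α)) u)^[n + 1] q).1 = q.1 ∧
      ((run (absorb (stp m lam P N) (base0 p m α)) u)^[n + 1] q).2.2 =
        (run (absorb (stp m lam P N) (base0 p m α)) u q).2.2 := by
    intro n
    induction n with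
    | zero =>
      refine ⟨?_, rfl⟩
      simp only [zero_add, Function.iterate_one]
      rw [← run_eq_of_ne u q hq1, run_t, hs, add_zero]
    | succ n ih =>
      have hn := hne (n + 1 + 1)
      rw [Function.iterate_succ_apply'] at hn ⊢
      rw [← run_eq_of_ne u _ hn]
      constructor
      · rw [run_t, hs, add_zero]
        exact ih.1
      · rw [run_l, ih.2, ih.1, hs, add_zero, ← run_eq_of_ne u q hq1, run_l, hs, add_zero]
        by_cases hu : u = []
        · simp [hu]
        · by_cases hq0 : q.1 = 0
          · simp [hu, hq0]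
          · simp only [hu, hq0, if_false]
            exact lastOr_idem lam u _
  obtain ⟨k', rfl⟩ : ∃ k', k = k' + 1 := ⟨k - 1, by omega⟩
  have hlast := hiter k'
  rw [hper] at hlast
  -- the `y` component
  have hy1 := mono_val hN u q hq1
  have hV : run (absorb (stp m lam P N) (base0 p m α)) (List.replicate k' u).flatten
      (run (absorb (stp m lam P N) (base0 p m α)) u q) = q := by
    rw [← iterate_eq_run_pow, ← Function.iterate_succ_apply, hper]
  have hy2 := mono_val hN (List.replicate k' u).flatten
    (run (absorb (stp m lam P N) (base0 p m α)) u q) (by rw [hV]; exact hq)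
  rw [hV] at hy2
  have hy : (run (absorb (stp m lam P N) (base0 p m α)) u q).2.1 = q.2.1 :=
    ZMod.val_injective m (le_antisymm hy2 hy1)
  have hiter0 := hiter 0
  simp only [zero_add, Function.iterate_one] at hiter0
  exact Prod.ext hiter0.1 (Prod.ext hy hlast.2.symm)

/-- The resolved function given by the counting automaton. -/
theorem res_stp (hN : ∀ x, N x → lam x = 0)
    (hP : ∃ d : Option α, ∀ l x, P l x → some x = d ∧ l ≠ d)
    [Finite α] (q : ZMod p × ZMod m × Option α) : Res (fun w : List α => run (stp m lam P N) w q) :=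
  haveI : NeZero p := ⟨(Fact.out : p.Prime).ne_zero⟩
  res_run (aper_stp hN hP) q

/-- Moving-letter information from a starting value `s0`. -/
def lBar (lam : α → ZMod p) (s0 : ZMod p) (w : List α) : Option α :=
  if s0 + (w.map lam).sum = 0 then none else lastOr lam w none

theorem run_l0 (s0 : ZMod p) (w : List α) :
    (run (stp m lam P N) w (s0, 0, none)).2.2 = lBar lam s0 w := by
  rw [run_l]
  by_cases hw : w = []
  · subst hw
    simp [lBar, lastOr]
  · simp [hw, lBar]

/-- The increment weight on positions. -/
def gInc (lam : α → ZMod p) (P : Option α → α → Prop) (N : α → Prop) (s0 : ZMod p)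
    (pre : List α) (x : α) : ℤ :=
  if IncP lam P N (s0 + (pre.map lam).sum) (lBar lam s0 pre) x then 1 else 0

theorem run_y0 (s0 : ZMod p) (w : List α) :
    (run (stp m lam P N) w (s0, 0, none)).2.1 = ((cnt (gInc lam P N s0) w : ℤ) : ZMod m) := by
  induction w using List.reverseRecOn with
  | nil => simp [run]
  | append_singleton w x ih =>
    rw [run_snoc, cnt_snoc]
    simp only [stp]
    rw [ih, run_t, run_l0]
    simp only [gInc]
    split_ifs <;> simp

/-- Weighted counts of the increment weight are resolved. -/
theorem rg_inc [Finite α] (hN : ∀ x, N x → lam x = 0)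
    (hP : ∃ d : Option α, ∀ l x, P l x → some x = d ∧ l ≠ d)
    (s0 : ZMod p) : Rg (gInc lam P N s0) := by
  intro m hm
  haveI : NeZero m := ⟨hm⟩
  haveI : NeZero p := ⟨(Fact.out : p.Prime).ne_zero⟩
  have h1 : Res (fun w : List α => (run (stp m lam P N) w (s0, 0, none)).2.1) :=
    res_factor (res_stp (m := m) hN hP (s0, 0, none))
      (fun w w' h => congrArg (fun q : ZMod p × ZMod m × Option α => q.2.1) h)
  intro c
  exact gsh_lang_congr (fun w => by simp only [run_y0]) (h1 c)

/-- The pair (partial sum, last moving letter) is resolved. -/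
theorem res_top [Finite α] (lam : α → ZMod p) (s0 : ZMod p) :
    Res (fun w : List α => (s0 + (w.map lam).sum, lBar lam s0 w)) := by
  haveI : NeZero p := ⟨(Fact.out : p.Prime).ne_zero⟩
  have h := res_stp (m := 1) (lam := lam) (P := fun _ _ => False) (N := fun _ => False)
    (fun _ h => h.elim) ⟨none, fun _ _ h => h.elim⟩ (s0, 0, none)
  refine res_factor h (fun w w' H => ?_)
  have h1 := congrArg Prod.fst H
  have h2 := congrArg (fun q => q.2.2) H
  simp only [run_t, run_l0] at h1 h2
  rw [h1, h2]

end Auto

end

end Vale.Agent.Lib.P329
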