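import Mathlib.Computability.Language

open Computability

namespace Vale.Agent.Lib.P329

/-- Generalized regular expressions over the alphabet `α`. -/
inductive GRE (α : Type) : Type
  | zero : GRE α
  | one : GRE α
  | letter : α → GRE α
  | add : GRE α → GRE α → GRE α
  | mul : GRE α → GRE α → GRE α
  | compl : GRE α → GRE α
  | star : GRE α → GRE α

namespace GRE

variable {α : Type}

/-- Star height of a generalized regular expression. -/
def height : GRE α → ℕ
  | zero => 0
  | one => 0
  | letter _ => 0
  | add P Q => max (height P) (height Q)
  | mul P Q => max (height P) (height Q)
  | compl P => height P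
  | star P => height P + 1

/-- The language denoted by a generalized regular expression; complement is taken in all words. -/
def den : GRE α → Language α
  | zero => 0
  | one => 1
  | letter a => {[a]}
  | add P Q => den P + den Q
  | mul P Q => den P * den Q
  | compl P => (den P)ᶜ
  | star P => (den P)∗

end GRE

/-- `L` has generalized star height at most `k`. -/
def GSHLe {α : Type} (k : ℕ) (L : Language α) : Prop :=
  ∃ e : GRE α, e.height ≤ k ∧ e.den = L

end Vale.Agent.Lib.P329
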