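import Vale.Agent.Lib.P329.Schutz
import Mathlib.Data.Fintype.Pigeonhole

open Computability

namespace Vale.Agent.Lib.P329

section Good

variable {Q α : Type} (T : α → Q → Q) (q0 : Q)

open Classical in
/-- The automaton in which the base state `q0` has been made absorbing. -/
noncomputable def absorb : α → Q → Q := fun a q => if q = q0 then q0 else T a q

variable {T q0}

theorem absorb_base (w : List α) : run (absorb T q0) w q0 = q0 := by
  induction w with
  | nil => rfl
  | cons a w ih =>
    simp only [run_cons, absorb, if_true]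
    exact ih

theorem absorb_ne (a : α) {q : Q} (h : q ≠ q0) : absorb T q0 a q = T a q := by
  simp [absorb, h]

/-- If the absorbing run stays away from `q0` it is the true run. -/
theorem run_eq_of_ne (w : List α) (x : Q) (hx : run (absorb T q0) w x ≠ q0) :
    run T w x = run (absorb T q0) w x := by
  induction w generalizing x with
  | nil => rfl
  | cons a w ih =>
    have hxne : x ≠ q0 := by
      rintro rfl
      exact hx (absorb_base _)
    simp only [run_cons] at hx ⊢
    rw [absorb_ne a hxne] at hx ⊢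
    exact ih _ hx

/-- Words that reach `q0` from `x` for the first time at their very end. -/
def HitP (T : α → Q → Q) (q0 x : Q) (w : List α) : Prop :=
  ∃ v b, w = v ++ [b] ∧ run (absorb T q0) v x ≠ q0 ∧ T b (run (absorb T q0) v x) = q0

theorem hit_split (w : List α) (x : Q) (hx : x ≠ q0) (h : run (absorb T q0) w x = q0) :
    ∃ u v, w = u ++ v ∧ HitP T q0 x u ∧ run T w x = run T v q0 := by
  induction w generalizing x with
  | nil => exact absurd h hx
  | cons b w ih =>
    simp only [run_cons] at h ⊢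
    rw [absorb_ne b hx] at h
    by_cases hz : T b x = q0
    · refine ⟨[b], w, rfl, ⟨[], b, rfl, hx, hz⟩, ?_⟩
      rw [hz]
    · obtain ⟨u, v, rfl, ⟨v', c, rfl, h1, h2⟩, h3⟩ := ih _ hz h
      refine ⟨b :: (v' ++ [c]), v, rfl, ⟨b :: v', c, rfl, ?_, ?_⟩, h3⟩
      · simp only [run_cons]; rw [absorb_ne b hx]; exact h1
      · simp only [run_cons]; rw [absorb_ne b hx]; exact h2

theorem hit_run {u : List α} {x : Q} (h : HitP T q0 x u) : run T u x = q0 := by
  obtain ⟨v, b, rfl, h1, h2⟩ := h
  rw [run_append, run_eq_of_ne v x h1]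
  exact h2

/-- First-return words at `q0`. -/
def RetP (T : α → Q → Q) (q0 : Q) (w : List α) : Prop :=
  ∃ b w', w = b :: w' ∧ ((T b q0 = q0 ∧ w' = []) ∨ (T b q0 ≠ q0 ∧ HitP T q0 (T b q0) w'))

theorem ret_run {w : List α} (h : RetP T q0 w) : run T w q0 = q0 := by
  obtain ⟨b, w', rfl, ⟨h1, rfl⟩ | ⟨h1, h2⟩⟩ := h
  · exact h1
  · simp only [run_cons]
    exact hit_run h2

theorem kstar_run {m : List α} (h : m ∈ (lang (RetP T q0))∗) : run T m q0 = q0 := by
  obtain ⟨L, rfl, hL⟩ := Language.mem_kstar.1 h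
  clear h
  induction L with
  | nil => rfl
  | cons x L ih =>
    simp only [List.flatten_cons, run_append]
    rw [ret_run (hL x (by simp))]
    exact ih (fun y hy => hL y (by simp [hy]))

theorem kstar_cons {x m : List α} (hx : RetP T q0 x) (hm : m ∈ (lang (RetP T q0))∗) :
    x ++ m ∈ (lang (RetP T q0))∗ := by
  obtain ⟨L, rfl, hL⟩ := Language.mem_kstar.1 hm
  rw [← List.flatten_cons]
  refine Language.join_mem_kstar (fun y hy => ?_)
  rcases List.mem_cons.1 hy with rfl | hy
  · exact hx
  · exact hL y hy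

/-- Words leading from `q0` to `y` without returning to `q0` afterwards. -/
def OutP (T : α → Q → Q) (q0 y : Q) (w : List α) : Prop :=
  (y = q0 ∧ w = []) ∨
    (y ≠ q0 ∧ ∃ b w', w = b :: w' ∧ T b q0 ≠ q0 ∧ run (absorb T q0) w' (T b q0) = y)

theorem out_run {y : Q} {v : List α} (h : OutP T q0 y v) : run T v q0 = y := by
  obtain ⟨rfl, rfl⟩ | ⟨hy, b, w', rfl, h1, h2⟩ := h
  · rfl
  · simp only [run_cons]
    rw [run_eq_of_ne w' _ (by rw [h2]; exact hy), h2]

theorem return_split (n : ℕ) : ∀ (w : List α) (y : Q), w.length = n → run T w q0 = y →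
    ∃ m v, m ∈ (lang (RetP T q0))∗ ∧ OutP T q0 y v ∧ w = m ++ v := by
  induction n using Nat.strong_induction_on with
  | _ n ih =>
    intro w y hn hy
    cases w with
    | nil =>
      refine ⟨[], [], Language.nil_mem_kstar _, Or.inl ⟨hy.symm, rfl⟩, rfl⟩
    | cons b w =>
      simp only [run_cons] at hy
      by_cases hz : T b q0 = q0
      · rw [hz] at hy
        obtain ⟨m, v, hm, hv, rfl⟩ := ih w.length (by simpa [← hn] using Nat.lt_succ_self _) w y rfl hy
        refine ⟨[b] ++ m, v, kstar_cons ⟨b, [], rfl, Or.inl ⟨hz, rfl⟩⟩ hm, hv, by simp⟩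
      · by_cases hh : run (absorb T q0) w (T b q0) = q0
        · obtain ⟨u, v, rfl, hu, hr⟩ := hit_split w _ hz hh
          rw [hr] at hy
          have hlen : v.length < n := by
            rw [← hn]; simp
          obtain ⟨m, v', hm, hv', rfl⟩ := ih v.length hlen v y rfl hy
          refine ⟨(b :: u) ++ m, v', kstar_cons ⟨b, u, rfl, Or.inr ⟨hz, hu⟩⟩ hm, hv', by simp⟩
        · have hne := run_eq_of_ne w _ hh
          rw [hne] at hy
          refine ⟨[], b :: w, Language.nil_mem_kstar _, Or.inr ⟨?_, b, w, rfl, hz, hy⟩, rfl⟩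
          rw [← hy]; exact hh

variable [Finite Q] [Finite α]

theorem hit_sf (hT : Aper (absorb T q0)) (x : Q) : GSHLe 0 (lang (HitP T q0 x)) := by
  have h1 : GSHLe 0 (lang (fun w : List α => ∃ p : {z : Q // z ≠ q0} × α,
      ∃ u v, (run (absorb T q0) u x = p.1.1 ∧ T p.2 p.1.1 = q0) ∧ v = [p.2] ∧ w = u ++ v)) := by
    refine gsh_exists (fun p => gsh_append ?_ (gsh_word_letter _))
    by_cases h : T p.2 p.1.1 = q0
    · exact gsh_lang_congr (fun w => by simp [h]) (sf_of_aper _ hT x p.1.1)
    · exact gsh_lang_congr (fun w => by simp [h]) (gsh_false (k := 0))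
  refine gsh_lang_congr (fun w => ?_) h1
  constructor
  · rintro ⟨⟨⟨z, hz⟩, b⟩, u, v, ⟨h2, h3⟩, rfl, rfl⟩
    simp only at h2 h3
    exact ⟨u, b, rfl, by rw [h2]; exact hz, by rw [h2]; exact h3⟩
  · rintro ⟨v, b, rfl, h2, h3⟩
    exact ⟨⟨⟨_, h2⟩, b⟩, v, [b], ⟨rfl, h3⟩, rfl, rfl⟩

theorem ret_sf (hT : Aper (absorb T q0)) : GSHLe 0 (lang (RetP T q0)) := by
  have h1 : GSHLe 0 (lang (fun w : List α => ∃ b : α, ∃ u v, u = [b] ∧
      ((T b q0 = q0 ∧ v = []) ∨ (T b q0 ≠ q0 ∧ HitP T q0 (T b q0) v)) ∧ w = u ++ v)) := by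
    refine gsh_exists (fun b => gsh_append (gsh_word_letter _) ?_)
    by_cases h : T b q0 = q0
    · exact gsh_lang_congr (fun w => by simp [h]) (gsh_nil (k := 0))
    · exact gsh_lang_congr (fun w => by simp [h]) (hit_sf hT (T b q0))
  refine gsh_lang_congr (fun w => ?_) h1
  constructor
  · rintro ⟨b, u, v, rfl, h2, rfl⟩
    exact ⟨b, v, rfl, h2⟩
  · rintro ⟨b, w', rfl, h2⟩
    exact ⟨b, [b], w', rfl, h2, rfl⟩

theorem out_sf (hT : Aper (absorb T q0)) (y : Q) : GSHLe 0 (lang (OutP T q0 y)) := by
  by_cases hy : y = q0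
  · refine gsh_lang_congr (fun w => ?_) (gsh_nil (k := 0))
    simp [OutP, hy]
  · have h1 : GSHLe 0 (lang (fun w : List α => ∃ b : α, ∃ u v, u = [b] ∧
        (T b q0 ≠ q0 ∧ run (absorb T q0) v (T b q0) = y) ∧ w = u ++ v)) := by
      refine gsh_exists (fun b => gsh_append (gsh_word_letter _) ?_)
      by_cases h : T b q0 = q0
      · exact gsh_lang_congr (fun w => by simp [h]) (gsh_false (k := 0))
      · exact gsh_lang_congr (fun w => by simp [h]) (sf_of_aper _ hT (T b q0) y)
    refine gsh_lang_congr (fun w => ?_) h1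
    constructor
    · rintro ⟨b, u, v, rfl, h2, rfl⟩
      exact Or.inr ⟨hy, b, v, rfl, h2⟩
    · rintro (⟨h, -⟩ | ⟨-, b, w', rfl, h2⟩)
      · exact absurd h hy
      · exact ⟨b, [b], w', rfl, h2, rfl⟩

/-- **First-return lemma.** If making `q0` absorbing yields an aperiodic transition monoid, then
every language `{w | run T w x = y}` has generalized star height at most one. -/
theorem sh1_of_good (hT : Aper (absorb T q0)) (x y : Q) :
    GSHLe 1 (lang (fun w : List α => run T w x = y)) := by
  have hstar : GSHLe 1 ((lang (RetP T q0))∗) := gsh_star (ret_sf hT)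
  have hstar' : GSHLe 1 (lang (fun w : List α => w ∈ (lang (RetP T q0))∗)) := hstar
  have hO : GSHLe 1 (lang (OutP T q0 y)) := gsh_mono (Nat.zero_le _) (out_sf hT y)
  have hmid := gsh_append hstar' hO
  by_cases hx : x = q0
  · subst hx
    refine gsh_lang_congr (fun w => ?_) hmid
    constructor
    · rintro ⟨m, v, hm, hv, rfl⟩
      rw [run_append, kstar_run hm, out_run hv]
    · intro h
      obtain ⟨m, v, hm, hv, rfl⟩ := return_split _ w y rfl h
      exact ⟨m, v, hm, hv, rfl⟩
  · have hH : GSHLe 1 (lang (HitP T q0 x)) := gsh_mono (Nat.zero_le _) (hit_sf hT x)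
    have hA : GSHLe 1 (lang (fun w : List α => y ≠ q0 ∧ run (absorb T q0) w x = y)) := by
      by_cases hy : y = q0
      · exact gsh_lang_congr (fun w => by simp [hy]) (gsh_false (k := 1))
      · exact gsh_lang_congr (fun w => by simp [hy]) (gsh_mono (Nat.zero_le _) (sf_of_aper _ hT x y))
    refine gsh_lang_congr (fun w => ?_) (gsh_or hA (gsh_append hH hmid))
    constructor
    · rintro (⟨h1, h2⟩ | ⟨u, r, hu, ⟨m, v, hm, hv, rfl⟩, rfl⟩)
      · rw [run_eq_of_ne w x (by rw [h2]; exact h1)]; exact h2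
      · rw [run_append, hit_run hu, run_append, kstar_run hm, out_run hv]
    · intro h
      by_cases hh : run (absorb T q0) w x = q0
      · obtain ⟨u, v, rfl, hu, hr⟩ := hit_split w x hx hh
        rw [hr] at h
        obtain ⟨m, v', hm, hv', rfl⟩ := return_split _ v y rfl h
        exact Or.inr ⟨u, m ++ v', hu, ⟨m, v', hm, hv', rfl⟩, rfl⟩
      · have hne := run_eq_of_ne w x hh
        rw [hne] at h
        exact Or.inl ⟨by rw [← h]; exact hh, h⟩

end Good

section Fixed

variable {Q α : Type}

theorem iterate_eq_run_pow (T : α → Q → Q) (u : List α) (k : ℕ) (q : Q) :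
    (run T u)^[k] q = run T (List.replicate k u).flatten q := by
  induction k generalizing q with
  | zero => rfl
  | succ k ih =>
    rw [Function.iterate_succ_apply, ih, List.replicate_succ, List.flatten_cons, run_append]

/-- To prove aperiodicity it suffices that periodic points of words are fixed points. -/
theorem aper_of_fixed [Finite Q] (T : α → Q → Q)
    (h : ∀ (u : List α) (q : Q) (k : ℕ), 0 < k → (run T u)^[k] q = q → run T u q = q) :
    Aper T := by
  classical
  haveI := Fintype.ofFinite Q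
  intro u
  refine ⟨Fintype.card Q, fun q => ?_⟩
  set f := run T u with hf
  obtain ⟨i, j, hij, heq⟩ := Fintype.exists_ne_map_eq_of_card_lt
    (fun i : Fin (Fintype.card Q + 1) => f^[i.1] q) (by simp)
  wlog hlt : i < j generalizing i j
  · exact this j i hij.symm heq.symm (lt_of_le_of_ne (not_lt.1 hlt) hij.symm)
  have hij' : i.1 < j.1 := hlt
  have hper : f^[j.1 - i.1] (f^[i.1] q) = f^[i.1] q := by
    rw [← Function.iterate_add_apply, Nat.sub_add_cancel hij'.le]
    exact heq.symm
  have hfix : f (f^[i.1] q) = f^[i.1] q := h u _ _ (Nat.sub_pos_of_lt hij') hper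
  have hall : ∀ k, f^[k] (f^[i.1] q) = f^[i.1] q := by
    intro k
    induction k with
    | zero => rfl
    | succ k ih => rw [Function.iterate_succ_apply, hfix, ih]
  have hile : i.1 ≤ Fintype.card Q := Nat.lt_succ_iff.1 i.2
  have e1 : f^[Fintype.card Q] q = f^[i.1] q := by
    have := hall (Fintype.card Q - i.1)
    rwa [← Function.iterate_add_apply, Nat.sub_add_cancel hile] at this
  have e2 : f^[Fintype.card Q + 1] q = f^[i.1] q := by
    have := hall (Fintype.card Q + 1 - i.1)
    rwa [← Function.iterate_add_apply, Nat.sub_add_cancel (Nat.le_succ_of_le hile)] at this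
  rw [e1, e2]

end Fixed

section Res

variable {α X Y : Type}

/-- A function on words is resolved if all its fibres have generalized star height at most one. -/
def Res (f : List α → X) : Prop := ∀ c, GSHLe 1 (lang (fun w => f w = c))

theorem res_run {Q : Type} [Finite Q] [Finite α] {T : α → Q → Q} {q0 : Q}
    (hT : Aper (absorb T q0)) (x : Q) : Res (fun w : List α => run T w x) :=
  fun y => sh1_of_good hT x y

theorem res_factor [Finite X] {f : List α → Y} {g : List α → X} (hg : Res g)
    (h : ∀ w w', g w = g w' → f w = f w') : Res f := by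
  intro c
  have h1 : GSHLe 1 (lang (fun w : List α => ∃ x : {x : X // ∃ w0, g w0 = x ∧ f w0 = c}, g w = x.1)) :=
    gsh_exists (fun x => hg x.1)
  refine gsh_lang_congr (fun w => ?_) h1
  constructor
  · rintro ⟨⟨x, w0, h0, h1⟩, hw⟩
    rw [← h1]
    exact h w w0 (hw.trans h0.symm)
  · intro hw
    exact ⟨⟨g w, w, rfl, hw⟩, rfl⟩

theorem res_pair {f : List α → X} {g : List α → Y} (hf : Res f) (hg : Res g) :
    Res (fun w => (f w, g w)) := by
  rintro ⟨a, b⟩
  exact gsh_lang_congr (fun w => by simp [Prod.ext_iff]) (gsh_and (hf a) (hg b))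

theorem res_pi {ι : Type} [Finite ι] {X : ι → Type} {F : (i : ι) → List α → X i}
    (h : ∀ i, Res (F i)) : Res (fun w i => F i w) := by
  intro c
  refine gsh_lang_congr (fun w => ?_) (gsh_forall (fun i => h i (c i)))
  exact funext_iff.symm

/-- Languages recognized through a resolved function have generalized star height at most one. -/
theorem res_mem [Finite X] {f : List α → X} (hf : Res f) (S : Set X) :
    GSHLe 1 (lang (fun w => f w ∈ S)) := by
  have h1 : GSHLe 1 (lang (fun w : List α => ∃ x : S, f w = x.1)) :=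
    gsh_exists (fun x => hf x.1)
  refine gsh_lang_congr (fun w => ?_) h1
  constructor
  · rintro ⟨⟨x, hx⟩, h⟩
    rw [h]; exact hx
  · intro h
    exact ⟨⟨_, h⟩, rfl⟩

end Res

end Vale.Agent.Lib.P329
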