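import Vale.Agent.Lib.P329.Radon
import Mathlib.GroupTheory.QuotientGroup.Basic
import Mathlib.GroupTheory.OrderOfElement
import Mathlib.Tactic.Group

open Computability

namespace Vale.Agent.Lib.P329

noncomputable section

open scoped Classical

section GroupPart

variable {α G : Type} [Group G] {p : ℕ}

/-- Positions at which the letter `i.2` is read after a prefix with count vector `i.1`. -/
def posW [Fintype α] (p : ℕ) (i : (α → ZMod p) × α) (pre : List α) (x : α) : ℤ :=
  if x = i.2 ∧ vec p pre = i.1 then 1 else 0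

/-- The collection formula. -/
theorem word_formula [Fintype α] {B : Type} [CommGroup B] (ι : B →* G) (φ : α → G)
    (g : (α → ZMod p) → G) (b : (α → ZMod p) → α → B)
    (hb : ∀ v x, ι (b v x) = g v * φ x * (g (v + ee p x))⁻¹) (w : List α)
    [Fact p.Prime] :
    g 0 * (w.map φ).prod * (g (vec p w))⁻¹ =
      ι (∏ i : (α → ZMod p) × α, b i.1 i.2 ^ cnt (posW p i) w) := by
  haveI : NeZero p := ⟨(Fact.out : p.Prime).ne_zero⟩
  induction w using List.reverseRecOn with
  | nil => simp
  | append_singleton w x ih =>
    simp only [cnt_snoc, zpow_add, Finset.prod_mul_distrib, map_mul]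
    rw [← ih]
    have h1 : ∏ i : (α → ZMod p) × α, b i.1 i.2 ^ posW p i w x = b (vec p w) x := by
      rw [Finset.prod_eq_single (vec p w, x)]
      · simp [posW]
      · rintro ⟨v, y⟩ - hne
        have : ¬ (x = y ∧ vec p w = v) := by
          rintro ⟨rfl, rfl⟩
          exact hne rfl
        simp [posW, this]
      · intro h
        exact absurd (Finset.mem_univ _) h
    rw [h1, hb, vec_snoc]
    simp only [List.map_append, List.prod_append, List.map_cons, List.map_nil, List.prod_cons,
      List.prod_nil, mul_one]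
    group

theorem vec_eq_cnt [Fintype α] (w : List α) (y : α) :
    vec p w y = ((cnt (fun _ x => if x = y then (1 : ℤ) else 0) w : ℤ) : ZMod p) := by
  induction w using List.reverseRecOn with
  | nil => simp
  | append_singleton w x ih =>
    rw [vec_snoc, cnt_snoc, Pi.add_apply, ih]
    by_cases h : x = y
    · subst h
      simp [ee]
    · simp [ee, h, Pi.single_apply, Ne.symm h]

/-- Words are evaluated through resolved data. -/
theorem res_word [Fintype α] {B : Type} [CommGroup B] [Finite B] (ι : B →* G) (φ : α → G)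
    (g : (α → ZMod p) → G) (b : (α → ZMod p) → α → B)
    (hb : ∀ v x, ι (b v x) = g v * φ x * (g (v + ee p x))⁻¹) [Fact p.Prime] :
    Res (fun w : List α => (w.map φ).prod) := by
  haveI : NeZero p := ⟨(Fact.out : p.Prime).ne_zero⟩
  have hcard : Nat.card B ≠ 0 := Nat.card_pos.ne'
  haveI : NeZero (Nat.card B) := ⟨hcard⟩
  have h1 : Res (fun w : List α => fun y => vec p w y) := by
    refine res_pi (fun y c => ?_)
    exact gsh_lang_congr (fun w => by simp only [vec_eq_cnt])
      (rg_letter y p (Fact.out : p.Prime).ne_zero c)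
  have h2 : Res (fun w : List α => fun i : (α → ZMod p) × α =>
      ((cnt (posW p i) w : ℤ) : ZMod (Nat.card B))) := by
    refine res_pi (fun i => ?_)
    exact rg_vec i.2 i.1 (Nat.card B) hcard
  refine res_factor (res_pair h1 h2) (fun w w' H => ?_)
  simp only [Prod.mk.injEq] at H
  obtain ⟨H1, H2⟩ := H
  have hv : vec p w = vec p w' := H1
  have hpow : ∀ i : (α → ZMod p) × α,
      b i.1 i.2 ^ cnt (posW p i) w = b i.1 i.2 ^ cnt (posW p i) w' := by
    intro i
    have h3 := congrFun H2 i
    rw [ZMod.intCast_eq_intCast_iff_dvd_sub] at h3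
    obtain ⟨t, ht⟩ := h3
    have h4 : cnt (posW p i) w' = cnt (posW p i) w + (Nat.card B : ℤ) * t := by linarith
    rw [h4, zpow_add, zpow_mul, zpow_natCast, pow_card_eq_one', one_zpow, mul_one]
  have hf1 := word_formula ι φ g b hb w
  have hf2 := word_formula ι φ g b hb w'
  rw [Finset.prod_congr rfl (fun i _ => hpow i), ← hf2, hv] at hf1
  have := mul_right_cancel hf1
  exact mul_left_cancel this

/-- A section of the abelianized top over count vectors. -/
theorem exists_section [Fintype α] {Q : Type} [Group Q] (hQ : ∀ a b : Q, a * b = b * a)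
    (π : G →* Q) (hπ : Function.Surjective π) (φ : α → G) (hexp : ∀ y, π (φ y) ^ p = 1)
    [Fact p.Prime] :
    ∃ g : (α → ZMod p) → G, ∀ v x, π (g v * φ x * (g (v + ee p x))⁻¹) = 1 := by
  haveI : NeZero p := ⟨(Fact.out : p.Prime).ne_zero⟩
  haveI : Fact (1 < p) := ⟨(Fact.out : p.Prime).one_lt⟩
  letI cQ : CommGroup Q := { (inferInstance : Group Q) with mul_comm := hQ }
  let F : (α → ZMod p) → Q := fun v => ∏ y, π (φ y) ^ (v y).val
  have hF : ∀ v x, F (v + ee p x) = F v * π (φ x) := by
    intro v x
    have h1 : ∀ y, π (φ y) ^ ((v + ee p x) y).val =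
        π (φ y) ^ (v y).val * (if y = x then π (φ x) else 1) := by
      intro y
      by_cases h : y = x
      · subst h
        simp only [Pi.add_apply, ee, Pi.single_eq_same, if_true]
        rw [ZMod.val_add, ZMod.val_one, ← pow_eq_pow_mod _ (hexp y), pow_succ]
      · simp [Pi.add_apply, ee, h, Pi.single_apply]
    simp only [F]
    rw [Finset.prod_congr rfl (fun y _ => h1 y), Finset.prod_mul_distrib, Finset.prod_ite_eq']
    simp
  refine ⟨fun v => Function.surjInv hπ (F v), fun v x => ?_⟩
  simp only [map_mul, map_inv, Function.surjInv_eq hπ, hF]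
  exact mul_inv_cancel _

end GroupPart

/-- **Main theorem.** Languages recognized by a finite group with a normal abelian subgroup `A`
containing all commutators and all `p`-th powers have generalized star height at most one. -/
theorem gsh_group {α G : Type} [Finite α] [Group G] [Finite G] (p : ℕ) (hp : p.Prime)
    (A : Subgroup G) (hA : A.Normal) (hcomm : ∀ a ∈ A, ∀ b ∈ A, a * b = b * a)
    (hC : ∀ g h : G, g * h * g⁻¹ * h⁻¹ ∈ A) (hP : ∀ g : G, g ^ p ∈ A) (φ : α → G) (S : Set G) :
    GSHLe 1 {w : List α | (w.map φ).prod ∈ S} := by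
  haveI : Fact p.Prime := ⟨hp⟩
  haveI := Fintype.ofFinite α
  have hQ : ∀ a b : G ⧸ A, a * b = b * a := by
    intro a b
    obtain ⟨g, rfl⟩ := QuotientGroup.mk_surjective a
    obtain ⟨h, rfl⟩ := QuotientGroup.mk_surjective b
    rw [← QuotientGroup.mk_mul, ← QuotientGroup.mk_mul, QuotientGroup.eq]
    have := hC h⁻¹ g⁻¹
    simpa [mul_assoc] using this
  obtain ⟨g, hg⟩ := exists_section (p := p) hQ (QuotientGroup.mk' A)
    (QuotientGroup.mk'_surjective A) φ (fun y => by
      have h1 : (QuotientGroup.mk' A) (φ y ^ p) = 1 :=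
        (QuotientGroup.eq_one_iff _).2 (hP _)
      rwa [map_pow] at h1)
  have hmem : ∀ v x, g v * φ x * (g (v + ee p x))⁻¹ ∈ A := by
    intro v x
    exact (QuotientGroup.eq_one_iff _).1 (hg v x)
  letI cA : CommGroup A :=
    { (inferInstance : Group A) with
      mul_comm := fun a b => Subtype.ext (hcomm a.1 a.2 b.1 b.2) }
  have hres := res_word (p := p) (B := A) A.subtype φ g
    (fun v x => ⟨g v * φ x * (g (v + ee p x))⁻¹, hmem v x⟩) (fun v x => rfl)
  exact res_mem hres S

end

end Vale.Agent.Lib.P329
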