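import Vale.Agent.Lib.P329.CLevel
import Mathlib.Data.Nat.Choose.Basic
import Mathlib.Tactic.LinearCombination

open Computability

namespace Vale.Agent.Lib.P329

noncomputable section

open scoped Classical

section Quad

variable {α : Type}

/-- Integer valued functions on words all of whose reductions are resolved. -/
def RF (F : List α → ℤ) : Prop := ∀ m : ℕ, m ≠ 0 → Res (fun w => ((F w : ℤ) : ZMod m))

theorem rf_mul {F G : List α → ℤ} (hF : RF F) (hG : RF G) : RF (fun w => F w * G w) := by
  intro m hm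
  haveI := finite_zmod hm
  refine res_factor (res_pair (hF m hm) (hG m hm)) (fun w w' H => ?_)
  simp only [Prod.mk.injEq] at H
  simp only [Int.cast_mul, H.1, H.2]

/-- Telescoping a function with resolved reductions. -/
theorem rg_of_rf {F : List α → ℤ} (hF : RF F) : Rg (fun pre x => F (pre ++ [x]) - F pre) := by
  intro m hm
  haveI := finite_zmod hm
  refine res_factor (hF m hm) (fun w w' H => ?_)
  have h1 := cnt_tele F w
  have h2 := cnt_tele F w'
  rw [h1, h2]
  simp only [Int.cast_sub, H]

/-- If weights agree modulo `m` with resolved weights, then their counts are resolved modulo `m`. -/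
theorem res_cast_cong {W g : List α → α → ℤ} {m : ℕ} (hm : m ≠ 0)
    (h : ∀ pre x, ((W pre x : ℤ) : ZMod m) = ((g pre x : ℤ) : ZMod m)) (hg : Rg g) :
    Res (fun w => ((cnt W w : ℤ) : ZMod m)) := by
  have key : ∀ w, ((cnt W w : ℤ) : ZMod m) = ((cnt g w : ℤ) : ZMod m) := by
    intro w
    induction w using List.reverseRecOn with
    | nil => simp
    | append_singleton w x ih =>
      rw [cnt_snoc, cnt_snoc, Int.cast_add, Int.cast_add, ih, h]
  intro c
  exact gsh_lang_congr (fun w => by
    show ((cnt g w : ℤ) : ZMod m) = c ↔ ((cnt W w : ℤ) : ZMod m) = c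
    rw [key w]) (hg m hm c)

/-- Weights given by a periodic function of a level. -/
theorem res_level_fun [Finite α] (S : α → Prop) (c : α) (hc : ¬ S c) (f : ℕ → ℤ) {m n : ℕ}
    (hm : m ≠ 0) (hn : n ≠ 0)
    (hf : ∀ a b : ℕ, ((a : ℕ) : ZMod n) = ((b : ℕ) : ZMod n) →
      ((f a : ℤ) : ZMod m) = ((f b : ℤ) : ZMod m)) :
    Res (fun w => ((cnt (fun pre x => if x = c then f (mv S pre) else 0) w : ℤ) : ZMod m)) := by
  haveI : NeZero n := ⟨hn⟩
  have hg := rg_sum (α := α) (Finset.univ : Finset (ZMod n))
    (g := fun θ pre x => f θ.val * (if x = c ∧ ((mv S pre : ℕ) : ZMod n) = θ then (1 : ℤ) else 0))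
    (fun θ _ => rg_mul _ (rg_clevel S c hc θ))
  refine res_cast_cong hm (fun pre x => ?_) hg
  by_cases hx : x = c
  · subst hx
    rw [Finset.sum_eq_single ((mv S pre : ℕ) : ZMod n)]
    · simp only [true_and, if_true, mul_one]
      exact hf _ _ (by rw [ZMod.natCast_zmod_val])
    · intro θ _ hθ
      have : ¬ (((mv S pre : ℕ) : ZMod n) = θ) := fun h => hθ h.symm
      simp [this]
    · intro h
      exact absurd (Finset.mem_univ _) h
  · simp [hx]

theorem two_choose (a : ℕ) : 2 * ((a.choose 2 : ℕ) : ℤ) = a * (a - 1) := by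
  induction a with
  | zero => simp
  | succ a ih =>
    rw [Nat.choose_succ_succ' a 1, Nat.choose_one_right]
    push_cast
    linear_combination ih

theorem six_choose (a : ℕ) : 6 * ((a.choose 3 : ℕ) : ℤ) = a * (a - 1) * (a - 2) := by
  induction a with
  | zero => simp
  | succ a ih =>
    rw [Nat.choose_succ_succ' a 2]
    push_cast
    linear_combination ih + 3 * two_choose a

theorem choose_two_cong {m : ℕ} (a b : ℕ)
    (h : ((a : ℕ) : ZMod (2 * m)) = ((b : ℕ) : ZMod (2 * m))) :
    (((a.choose 2 : ℕ) : ℤ) : ZMod m) = (((b.choose 2 : ℕ) : ℤ) : ZMod m) := by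
  rw [ZMod.intCast_eq_intCast_iff_dvd_sub]
  have h1 : (((a : ℤ)) : ZMod (2 * m)) = (((b : ℤ)) : ZMod (2 * m)) := by
    simpa using h
  rw [ZMod.intCast_eq_intCast_iff_dvd_sub] at h1
  obtain ⟨t, ht⟩ := h1
  refine ⟨t * ((a : ℤ) + b - 1), ?_⟩
  push_cast at ht
  have h2 := two_choose a
  have h3 := two_choose b
  have h4 : 2 * (((b.choose 2 : ℕ) : ℤ) - ((a.choose 2 : ℕ) : ℤ)) =
      2 * ((m : ℤ) * (t * ((a : ℤ) + b - 1))) := by
    linear_combination h3 - h2 + ((a : ℤ) + b - 1) * ht
  linarith

theorem choose_three_cong {m : ℕ} (a b : ℕ)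
    (h : ((a : ℕ) : ZMod (6 * m)) = ((b : ℕ) : ZMod (6 * m))) :
    (((a.choose 3 : ℕ) : ℤ) : ZMod m) = (((b.choose 3 : ℕ) : ℤ) : ZMod m) := by
  rw [ZMod.intCast_eq_intCast_iff_dvd_sub]
  have h1 : (((a : ℤ)) : ZMod (6 * m)) = (((b : ℤ)) : ZMod (6 * m)) := by
    simpa using h
  rw [ZMod.intCast_eq_intCast_iff_dvd_sub] at h1
  obtain ⟨t, ht⟩ := h1
  refine ⟨t * ((a : ℤ) ^ 2 + a * b + (b : ℤ) ^ 2 - 3 * (a + b) + 2), ?_⟩
  push_cast at ht
  have h2 := six_choose a
  have h3 := six_choose b
  have h4 : 6 * (((b.choose 3 : ℕ) : ℤ) - ((a.choose 3 : ℕ) : ℤ)) =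
      6 * ((m : ℤ) * (t * ((a : ℤ) ^ 2 + a * b + (b : ℤ) ^ 2 - 3 * (a + b) + 2))) := by
    linear_combination h3 - h2 + ((a : ℤ) ^ 2 + a * b + (b : ℤ) ^ 2 - 3 * (a + b) + 2) * ht
  linarith

/-- Number of occurrences of the letter `y`. -/
def vc (y : α) (w : List α) : ℕ := mv (fun x => x = y) w

theorem vc_snoc (y x : α) (w : List α) : vc y (w ++ [x]) = vc y w + (if x = y then 1 else 0) :=
  mv_snoc _ _ _

theorem cnt_vc (y : α) (w : List α) :
    cnt (fun _ x => if x = y then (1 : ℤ) else 0) w = (vc y w : ℤ) := by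
  induction w using List.reverseRecOn with
  | nil => simp [vc]
  | append_singleton w x ih =>
    rw [cnt_snoc, ih, vc_snoc]
    by_cases h : x = y <;> simp [h]

variable [Finite α]

theorem rf_vc (y : α) : RF (fun w => (vc y w : ℤ)) := by
  intro m hm c
  exact gsh_lang_congr (fun w => by
    show ((cnt (fun _ x => if x = y then (1 : ℤ) else 0) w : ℤ) : ZMod m) = c ↔
      (((vc y w : ℤ) : ℤ) : ZMod m) = c
    rw [cnt_vc]) (rg_letter y m hm c)

theorem rf_vc_two (y : α) : RF (fun w => ((vc y w).choose 2 : ℤ)) := by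
  intro m hm
  have h2m : 2 * m ≠ 0 := by omega
  haveI := finite_zmod h2m
  refine res_factor (rf_vc y (2 * m) h2m) (fun w w' H => ?_)
  apply choose_two_cong
  simpa using H

theorem rf_vc_three (y : α) : RF (fun w => ((vc y w).choose 3 : ℤ)) := by
  intro m hm
  have h6m : 6 * m ≠ 0 := by omega
  haveI := finite_zmod h6m
  refine res_factor (rf_vc y (6 * m) h6m) (fun w w' H => ?_)
  apply choose_three_cong
  simpa using H

/-- First moments at a non-moving letter. -/
theorem rg_lin_level (S : α → Prop) (c : α) (hc : ¬ S c) :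
    Rg (fun pre x => if x = c then ((mv S pre : ℕ) : ℤ) else 0) := by
  intro m hm
  refine res_level_fun S c hc (fun a => (a : ℤ)) hm hm (fun a b h => ?_)
  simpa using h

/-- Second binomial moments at a non-moving letter. -/
theorem rg_two_level (S : α → Prop) (c : α) (hc : ¬ S c) :
    Rg (fun pre x => if x = c then (((mv S pre).choose 2 : ℕ) : ℤ) else 0) := by
  intro m hm
  have h2m : 2 * m ≠ 0 := by omega
  exact res_level_fun S c hc (fun a => ((a.choose 2 : ℕ) : ℤ)) hm h2m
    (fun a b h => choose_two_cong a b h)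

/-- `E1`: the first moment of a letter count at positions of a letter. -/
theorem rg_E1 (c y : α) : Rg (fun pre x => if x = c then ((vc y pre : ℕ) : ℤ) else 0) := by
  by_cases hy : c = y
  · subst hy
    refine rg_congr (fun pre x => ?_) (rg_of_rf (rf_vc_two c))
    rw [vc_snoc]
    by_cases hx : x = c
    · subst hx
      simp only [if_true]
      rw [Nat.choose_succ_succ' (vc x pre) 1, Nat.choose_one_right]
      push_cast
      ring
    · simp [hx]
  · exact rg_lin_level (fun x => x = y) c hy

/-- `E2`: the second binomial moment of a letter count at positions of a letter. -/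
theorem rg_E2 (c y : α) : Rg (fun pre x => if x = c then (((vc y pre).choose 2 : ℕ) : ℤ) else 0) := by
  by_cases hy : c = y
  · subst hy
    refine rg_congr (fun pre x => ?_) (rg_of_rf (rf_vc_three c))
    rw [vc_snoc]
    by_cases hx : x = c
    · subst hx
      simp only [if_true]
      rw [Nat.choose_succ_succ' (vc x pre) 2]
      push_cast
      ring
    · simp [hx]
  · exact rg_two_level (fun x => x = y) c hy

omit [Finite α] in
theorem mv_pair (y z : α) (hyz : y ≠ z) (w : List α) :
    mv (fun x => x = y ∨ x = z) w = vc y w + vc z w := by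
  induction w using List.reverseRecOn with
  | nil => simp [vc]
  | append_singleton w x ih =>
    rw [mv_snoc, ih, vc_snoc, vc_snoc]
    by_cases h1 : x = y
    · subst h1
      simp [hyz]
      omega
    · by_cases h2 : x = z
      · subst h2
        simp [h1]
        omega
      · simp [h1, h2]

/-- Mixed moment at a letter different from the two letters. -/
theorem rg_E3_far (c y z : α) (hyz : y ≠ z) (hcy : c ≠ y) (hcz : c ≠ z) :
    Rg (fun pre x => if x = c then (((vc y pre * vc z pre : ℕ)) : ℤ) else 0) := by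
  have h1 := rg_two_level (fun x => x = y ∨ x = z) c (by simp [hcy, hcz])
  have h2 := rg_two_level (fun x => x = y) c hcy
  have h3 := rg_two_level (fun x => x = z) c hcz
  refine rg_congr (fun pre x => ?_) (rg_sub (rg_sub h1 h2) h3)
  by_cases hx : x = c
  · simp only [hx, if_true]
    rw [mv_pair y z hyz]
    have e1 := two_choose (vc y pre + vc z pre)
    have e2 := two_choose (vc y pre)
    have e3 := two_choose (vc z pre)
    have e4 : mv (fun x => x = y) pre = vc y pre := rfl
    have e5 : mv (fun x => x = z) pre = vc z pre := rfl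
    rw [e4, e5]
    push_cast at e1 e2 e3 ⊢
    have e6 : 2 * ((vc y pre : ℤ) * (vc z pre : ℤ)) = 2 * ((((vc y pre + vc z pre).choose 2 : ℕ) : ℤ)
        - (((vc y pre).choose 2 : ℕ) : ℤ) - (((vc z pre).choose 2 : ℕ) : ℤ)) := by
      linear_combination -e1 + e2 + e3
    linarith
  · simp [hx]

/-- Mixed moment at one of the two letters, by summation by parts. -/
theorem rg_E3_near (c z : α) (hcz : c ≠ z) :
    Rg (fun pre x => if x = c then (((vc c pre * vc z pre : ℕ)) : ℤ) else 0) := by
  have h1 := rg_of_rf (rf_mul (rf_vc_two c) (rf_vc z))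
  have h2 := rg_two_level (fun x => x = c) z (Ne.symm hcz)
  refine rg_congr (fun pre x => ?_) (rg_sub h1 h2)
  rw [vc_snoc, vc_snoc]
  have e4 : mv (fun x => x = c) pre = vc c pre := rfl
  simp only [e4]
  by_cases hx : x = c
  · subst hx
    simp only [if_true, hcz, if_false, add_zero]
    rw [Nat.choose_succ_succ' (vc x pre) 1, Nat.choose_one_right]
    push_cast
    ring
  · by_cases hz : x = z
    · subst hz
      simp only [hx, if_false, if_true, add_zero]
      push_cast
      ring
    · simp [hx, hz]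

/-- `E3`: the mixed moment of two different letter counts at positions of a letter. -/
theorem rg_E3 (c y z : α) (hyz : y ≠ z) :
    Rg (fun pre x => if x = c then (((vc y pre * vc z pre : ℕ)) : ℤ) else 0) := by
  by_cases hcy : c = y
  · subst hcy
    exact rg_E3_near c z hyz
  · by_cases hcz : c = z
    · subst hcz
      refine rg_congr (fun pre x => ?_) (rg_E3_near c y hcy)
      rw [mul_comm]
    · exact rg_E3_far c y z hyz hcy hcz

end Quad

end

end Vale.Agent.Lib.P329
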