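import Vale.Agent.Lib.P329.Tele
import Mathlib.GroupTheory.Index
import Mathlib.Data.Fintype.BigOperators
import Mathlib.Algebra.Order.BigOperators.Group.Finset
import Mathlib.Data.Fintype.Pi
import Mathlib.Data.ZMod.Basic

open Computability

namespace Vale.Agent.Lib.P329

noncomputable section

open scoped Classical

section Radon

variable {α : Type} {p : ℕ}

/-- Unit vector. -/
def ee (p : ℕ) (x : α) : α → ZMod p := Pi.single x 1

/-- The vector of letter counts modulo `p`. -/
def vec (p : ℕ) (w : List α) : α → ZMod p := (w.map (ee p)).sum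

@[simp] theorem vec_nil : vec (α := α) p [] = 0 := rfl

theorem vec_snoc (w : List α) (x : α) : vec p (w ++ [x]) = vec p w + ee p x := by
  simp [vec, List.sum_append]

variable [Fintype α]

/-- Scalar product. -/
def dot (lam v : α → ZMod p) : ZMod p := ∑ y, lam y * v y

theorem dot_ee (lam : α → ZMod p) (x : α) : dot lam (ee p x) = lam x := by
  simp [dot, ee, Pi.single_apply]

theorem dot_add (lam u v : α → ZMod p) : dot lam (u + v) = dot lam u + dot lam v := by
  simp [dot, mul_add, Finset.sum_add_distrib]

theorem dot_sub (lam u v : α → ZMod p) : dot lam (u - v) = dot lam u - dot lam v := by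
  simp [dot, mul_sub, Finset.sum_sub_distrib]

theorem dot_zero (lam : α → ZMod p) : dot lam (0 : α → ZMod p) = 0 := by
  simp [dot]

theorem dot_vec (lam : α → ZMod p) (w : List α) : dot lam (vec p w) = (w.map lam).sum := by
  induction w using List.reverseRecOn with
  | nil => simp [dot_zero]
  | append_singleton w x ih =>
    rw [vec_snoc, dot_add, ih, dot_ee]
    simp [List.sum_append]

variable [Fact p.Prime]

/-- Scalar product with a fixed vector, as a homomorphism. -/
def dotHom (u : α → ZMod p) : (α → ZMod p) →+ ZMod p where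
  toFun lam := dot lam u
  map_zero' := by simp [dot]
  map_add' a b := by simp [dot, add_mul, Finset.sum_add_distrib]

theorem card_ker (u : α → ZMod p) (hu : u ≠ 0) :
    (Finset.univ.filter (fun lam : α → ZMod p => dot lam u = 0)).card * p
      = p ^ Fintype.card α := by
  haveI : NeZero p := ⟨(Fact.out : p.Prime).ne_zero⟩
  obtain ⟨y, hy⟩ : ∃ y, u y ≠ 0 := by
    by_contra h
    push Not at h
    exact hu (funext h)
  have hsurj : ∀ r : ZMod p, r ∈ Set.range (dotHom u) := by
    intro r
    refine ⟨Pi.single y (r * (u y)⁻¹), ?_⟩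
    show dot _ u = r
    simp only [dot, Pi.single_apply, ite_mul, zero_mul, Finset.sum_ite_eq', Finset.mem_univ,
      if_true]
    rw [mul_assoc, inv_mul_cancel₀ hy, mul_one]
  have hfib : ∀ r : ZMod p,
      (Finset.univ.filter (fun lam : α → ZMod p => dotHom u lam = r)).card =
        (Finset.univ.filter (fun lam : α → ZMod p => dotHom u lam = 0)).card :=
    fun r => AddMonoidHom.card_fiber_eq_of_mem_range (dotHom u) (hsurj r) (hsurj 0)
  have hsum := Finset.card_eq_sum_card_fiberwise
    (s := (Finset.univ : Finset (α → ZMod p))) (t := (Finset.univ : Finset (ZMod p)))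
    (f := dotHom u) (fun _ _ => Finset.mem_univ _)
  rw [Finset.sum_congr rfl (fun r _ => hfib r)] at hsum
  simp only [Finset.sum_const, Finset.card_univ, ZMod.card, smul_eq_mul, Fintype.card_fun] at hsum
  have h5 : (Finset.univ.filter (fun lam : α → ZMod p => dotHom u lam = 0)) =
      Finset.univ.filter (fun lam : α → ZMod p => dot lam u = 0) :=
    Finset.filter_congr (fun lam _ => Iff.rfl)
  rw [mul_comm, ← h5]
  exact hsum.symm

/-- Inverse Radon transform: recovering a letter at a given count vector. -/
theorem rg_vec [Finite α] (c : α) (v0 : α → ZMod p) :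
    Rg (fun (pre : List α) (x : α) => if x = c ∧ vec p pre = v0 then (1 : ℤ) else 0) := by
  have hp := (Fact.out : p.Prime)
  have hk : 0 < Fintype.card α := Fintype.card_pos_iff.2 ⟨c⟩
  obtain ⟨k, hk'⟩ : ∃ k, Fintype.card α = k + 1 := ⟨Fintype.card α - 1, by omega⟩
  have hcount : ∀ u : α → ZMod p,
      ((Finset.univ.filter (fun lam : α → ZMod p => dot lam u = 0)).card : ℤ) =
        (p : ℤ) ^ k + (if u = 0 then (p : ℤ) ^ (k + 1) - (p : ℤ) ^ k else 0) := by
    intro u
    by_cases hu : u = 0
    · subst hu
      haveI : NeZero p := ⟨hp.ne_zero⟩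
      have h1 : Finset.univ.filter (fun lam : α → ZMod p => dot lam 0 = 0) = Finset.univ := by
        apply Finset.filter_true_of_mem
        intro lam _
        exact dot_zero lam
      rw [h1]
      simp only [Finset.card_univ, Fintype.card_fun, ZMod.card, if_true, hk']
      push_cast
      ring
    · have h1 := card_ker u hu
      rw [hk', pow_succ] at h1
      have h2 := Nat.eq_of_mul_eq_mul_right hp.pos h1
      simp [hu, h2]
  have hD : (p : ℤ) ^ (k + 1) - (p : ℤ) ^ k ≠ 0 := by
    have h1 : (p : ℤ) ^ (k + 1) - (p : ℤ) ^ k = (p : ℤ) ^ k * ((p : ℤ) - 1) := by ring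
    rw [h1]
    have h2 : (p : ℤ) ≠ 0 := by exact_mod_cast hp.ne_zero
    have h3 : (p : ℤ) - 1 ≠ 0 := by
      have : (2 : ℤ) ≤ p := by exact_mod_cast hp.two_le
      intro h
      have : (p : ℤ) = 1 := by linarith
      omega
    exact mul_ne_zero (pow_ne_zero _ h2) h3
  refine rg_of_mul hD ?_
  have h1 := rg_sum (α := α) (Finset.univ : Finset (α → ZMod p))
    (g := fun lam pre x => if x = c ∧ (pre.map lam).sum = dot lam v0 then (1 : ℤ) else 0)
    (fun lam _ => rg_level lam c (dot lam v0))
  have h2 := rg_mul ((p : ℤ) ^ k) (rg_letter (α := α) c)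
  refine rg_congr (fun pre x => ?_) (rg_sub h1 h2)
  by_cases hx : x = c
  · subst hx
    have h3 : ∀ lam : α → ZMod p, (pre.map lam).sum = dot lam v0 ↔ dot lam (vec p pre - v0) = 0 := by
      intro lam
      rw [dot_sub, dot_vec, sub_eq_zero]
    simp only [true_and, if_true, mul_one, h3]
    rw [Finset.sum_boole, hcount]
    simp only [sub_eq_zero]
    by_cases hv : vec p pre = v0
    · simp [hv]
    · simp [hv]
  · simp [hx]

end Radon

end

end Vale.Agent.Lib.P329
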