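import Vale.Agent.Lib.P329.Closure
import Mathlib.SetTheory.Cardinal.NatCard
import Mathlib.Data.List.Basic
import Mathlib.Data.Finset.Card

namespace Vale.Agent.Lib.P329

section Run

variable {Q α : Type} (T : α → Q → Q)

/-- Run of the deterministic automaton given by the letter actions `T`. -/
def run : List α → Q → Q
  | [], q => q
  | a :: w, q => run w (T a q)

@[simp] theorem run_nil (q : Q) : run T [] q = q := rfl

@[simp] theorem run_cons (a : α) (w : List α) (q : Q) : run T (a :: w) q = run T w (T a q) := rfl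

theorem run_append (u v : List α) (q : Q) : run T (u ++ v) q = run T v (run T u q) := by
  induction u generalizing q with
  | nil => rfl
  | cons a u ih => simp [ih]

/-- Aperiodicity of the transition monoid: every word acts with period one eventually. -/
def Aper : Prop := ∀ w : List α, ∃ n : ℕ, ∀ q : Q, (run T w)^[n] q = (run T w)^[n + 1] q

end Run

section Block

variable {Q α : Type} (T : α → Q → Q) (a : α) (S : α → Prop)

/-- The image of the letter `a`. -/
abbrev Qa : Type := {q : Q // ∃ z, T a z = q}

/-- Realized block maps: restrictions to the image of `a` of the action of `u a`, `u` over `S`. -/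
def Lam : Type :=
  {τ : Qa T a → Qa T a // ∃ u : List α, (∀ b ∈ u, S b) ∧ ∀ y : Qa T a, (τ y).1 = T a (run T u y.1)}

/-- The action of block letters on the image of `a`. -/
def Tlam : Lam T a S → Qa T a → Qa T a := fun τ y => τ.1 y

/-- `Dec w t`: the word `w` factors into blocks `u a`, with `t` the list of block maps. -/
inductive Dec : List α → List (Lam T a S) → Prop
  | nil : Dec [] []
  | cons (x u w : List α) (hx : x = u ++ a :: w) (t : List (Lam T a S)) (τ : Lam T a S)
      (hu : ∀ b ∈ u, S b) (hτ : ∀ y : Qa T a, (τ.1 y).1 = T a (run T u y.1)) (h : Dec w t) :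
      Dec x (τ :: t)

variable {T a S}

/-- The block map of a word over `S`. -/
def blockOf (u : List α) (hu : ∀ b ∈ u, S b) : Lam T a S :=
  ⟨fun y => ⟨T a (run T u y.1), _, rfl⟩, u, hu, fun _ => rfl⟩

theorem dec_nil_right {w : List α} (h : Dec T a S w []) : w = [] := by
  cases h; rfl

theorem dec_functional (hS : ¬ S a) {w : List α} {t t' : List (Lam T a S)}
    (h : Dec T a S w t) (h' : Dec T a S w t') : t = t' := by
  induction h generalizing t' with
  | nil =>
    cases h' with
    | nil => rfl
    | cons x u w hx t τ hu hτ h => simp at hx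
  | cons x u w hx t τ hu hτ h ih =>
    cases h' with
    | nil => simp at hx
    | cons x' u' w' hx' t' τ' hu' hτ' h' =>
      have hau : a ∉ u := fun hh => hS (hu a hh)
      have haw : a ∉ u' := fun hh => hS (hu' a hh)
      have hx2 : u ++ a :: w = u' ++ a :: w' := hx.symm.trans hx'
      obtain ⟨h1, h2⟩ : u = u' ∧ w = w' := by
        clear ih h h' hx hx' hτ hτ' hu hu'
        induction u generalizing u' with
        | nil =>
          cases u' with
          | nil => simpa using hx2
          | cons c u' =>
            simp only [List.nil_append, List.cons_append, List.cons.injEq] at hx2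
            exact absurd (hx2.1 ▸ List.mem_cons_self) haw
        | cons c u ihu =>
          cases u' with
          | nil =>
            simp only [List.nil_append, List.cons_append, List.cons.injEq] at hx2
            exact absurd (hx2.1.symm ▸ List.mem_cons_self) hau
          | cons d u' =>
            simp only [List.cons_append, List.cons.injEq] at hx2
            obtain ⟨rfl, hx3⟩ := hx2
            obtain ⟨h1, h2⟩ := ihu u' (fun hh => hau (List.mem_cons_of_mem _ hh))
              (fun hh => haw (List.mem_cons_of_mem _ hh)) hx3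
            exact ⟨by rw [h1], h2⟩
      subst h1; subst h2
      have : τ = τ' := by
        apply Subtype.ext
        funext y
        apply Subtype.ext
        rw [hτ, hτ']
      rw [this, ih h']

theorem dec_append {w w' : List α} {t t' : List (Lam T a S)} (h : Dec T a S w t)
    (h' : Dec T a S w' t') : Dec T a S (w ++ w') (t ++ t') := by
  induction h with
  | nil => simpa using h'
  | cons x u w hx t τ hu hτ h ih =>
    subst hx
    exact Dec.cons _ u (w ++ w') (by simp) (t ++ t') τ hu hτ ih

theorem dec_split {w : List α} {t t' : List (Lam T a S)} (h : Dec T a S w (t ++ t')) :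
    ∃ w1 w2, w = w1 ++ w2 ∧ Dec T a S w1 t ∧ Dec T a S w2 t' := by
  induction t generalizing w with
  | nil => exact ⟨[], w, rfl, Dec.nil, by simpa using h⟩
  | cons τ t ih =>
    cases h with
    | cons x u w hx t0 τ hu hτ h =>
      obtain ⟨w1, w2, rfl, h1, h2⟩ := ih h
      subst hx
      exact ⟨u ++ a :: w1, w2, by simp, Dec.cons _ u w1 rfl t τ hu hτ h1, h2⟩

theorem dec_run {w : List α} {t : List (Lam T a S)} (h : Dec T a S w t) (y : Qa T a) :
    (run (Tlam T a S) t y).1 = run T w y.1 := by
  induction h generalizing y with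
  | nil => rfl
  | cons x u w hx t τ hu hτ h ih =>
    subst hx
    simp only [run_cons, run_append]
    rw [ih]
    have := hτ y
    simp only [Tlam]
    rw [this]

end Block

section Main

variable {Q α : Type}

/-- A word containing `a` splits at the first `a`. -/
theorem split_first [DecidableEq α] (a : α) (w : List α) (h : a ∈ w) :
    ∃ u v, w = u ++ a :: v ∧ a ∉ u := by
  induction w with
  | nil => simp at h
  | cons b w ih =>
    by_cases hb : b = a
    · subst hb; exact ⟨[], w, rfl, by simp⟩
    · have hw : a ∈ w := by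
        rcases List.mem_cons.1 h with h | h
        · exact absurd h.symm hb
        · exact h
      obtain ⟨u, v, rfl, hu⟩ := ih hw
      refine ⟨b :: u, v, rfl, ?_⟩
      simp [hu, Ne.symm hb]

/-- The word language over letters of `s` moving `x` to `y`. -/
def W (T : α → Q → Q) (s : Finset α) (x y : Q) : Language α :=
  lang (fun w => (∀ b ∈ w, b ∈ s) ∧ run T w x = y)

theorem aper_injective_id {T : α → Q → Q} (hT : Aper T) (a : α)
    (hinj : Function.Injective (T a)) (q : Q) : T a q = q := by
  obtain ⟨n, hn⟩ := hT [a]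
  have h0 : run T [a] = T a := rfl
  rw [h0] at hn
  have := hn q
  rw [Function.iterate_succ_apply] at this
  exact (hinj.iterate n this).symm

section Step

variable [Finite α] {T : α → Q → Q} {a : α} {s : Finset α}

/-- The domain of decoding is star-free. -/
theorem dec_dom_iff (ha : a ∈ s) [DecidableEq α] (w : List α) :
    (∃ t, Dec T a (· ∈ s.erase a) w t) ↔
      ((∀ b ∈ w, b ∈ s) ∧ (w = [] ∨ ∃ u v, True ∧ v = [a] ∧ w = u ++ v)) := by
  constructor
  · rintro ⟨t, ht⟩
    induction ht with
    | nil => exact ⟨by simp, Or.inl rfl⟩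
    | cons x u w hx t τ hu hτ h ih =>
      obtain ⟨ih1, ih2⟩ := ih
      subst hx
      refine ⟨?_, Or.inr ?_⟩
      · intro b hb
        rcases List.mem_append.1 hb with hb | hb
        · exact (Finset.mem_erase.1 (hu b hb)).2
        · rcases List.mem_cons.1 hb with rfl | hb
          · exact ha
          · exact ih1 b hb
      · rcases ih2 with rfl | ⟨u', v', -, rfl, rfl⟩
        · exact ⟨u, [a], trivial, rfl, rfl⟩
        · exact ⟨u ++ a :: u', [a], trivial, rfl, by simp⟩
  · have key : ∀ n (w : List α), w.length = n → (∀ b ∈ w, b ∈ s) →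
        (w = [] ∨ ∃ u v, True ∧ v = [a] ∧ w = u ++ v) → ∃ t, Dec T a (· ∈ s.erase a) w t := by
      intro n
      induction n using Nat.strong_induction_on with
      | _ n ih =>
        intro w hn hw hend
        rcases hend with rfl | ⟨u, v, -, rfl, rfl⟩
        · exact ⟨[], Dec.nil⟩
        · have hmem : a ∈ u ++ [a] := by simp
          obtain ⟨u1, v1, heq, hu1⟩ := split_first a _ hmem
          have hu1S : ∀ b ∈ u1, b ∈ s.erase a := by
            intro b hb
            have hbs : b ∈ s := hw b (by rw [heq]; simp [hb])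
            exact Finset.mem_erase.2 ⟨fun hh => hu1 (hh ▸ hb), hbs⟩
          have hv1 : ∀ b ∈ v1, b ∈ s := fun b hb => hw b (by rw [heq]; simp [hb])
          have hv1end : v1 = [] ∨ ∃ u' v', True ∧ v' = [a] ∧ v1 = u' ++ v' := by
            rcases List.eq_nil_or_concat' v1 with h | ⟨v2, c, h⟩
            · exact Or.inl h
            · right
              subst h
              have h3 : u1 ++ a :: (v2 ++ [c]) = (u1 ++ a :: v2) ++ [c] := by simp
              rw [h3] at heq
              have h4 := (List.append_inj' heq rfl).2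
              simp only [List.cons.injEq, and_true] at h4
              subst h4
              exact ⟨v2, [a], trivial, rfl, rfl⟩
          have hlen : v1.length < n := by
            rw [← hn, heq]; simp; omega
          obtain ⟨t, ht⟩ := ih _ hlen v1 rfl hv1 hv1end
          exact ⟨blockOf u1 hu1S :: t, Dec.cons _ u1 v1 heq t _ hu1S (fun _ => rfl) ht⟩
    rintro ⟨h1, h2⟩
    exact key _ w rfl h1 h2

open Classical in
theorem dec_dom_sf (ha : a ∈ s) :
    GSHLe 0 (lang (fun w : List α => ∃ t, Dec T a (· ∈ s.erase a) w t)) := by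
  have h1 : GSHLe 0 (lang (fun w : List α => (∀ b ∈ w, b ∈ s) ∧
      (w = [] ∨ ∃ u v, True ∧ v = [a] ∧ w = u ++ v))) :=
    gsh_and (gsh_allin _) (gsh_or gsh_nil (gsh_append gsh_true (gsh_word_letter a)))
  exact gsh_lang_congr (fun w => (dec_dom_iff ha w).symm) h1

variable [Finite Q]

open Classical in
theorem letter_class_sf (IH : ∀ x y, GSHLe 0 (W T (s.erase a) x y))
    (τ : Lam T a (· ∈ s.erase a)) :
    GSHLe 0 (lang (fun w : List α => Dec T a (· ∈ s.erase a) w [τ])) := by
  have h1 : GSHLe 0 (lang (fun u : List α => (∀ b ∈ u, b ∈ s.erase a) ∧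
      ∀ y : Qa T a, ∃ z : {z : Q // T a z = (τ.1 y).1},
        ((∀ b ∈ u, b ∈ s.erase a) ∧ run T u y.1 = z.1))) :=
    gsh_and (gsh_allin _) (gsh_forall (fun y => gsh_exists (fun z => IH _ _)))
  have h2 := gsh_append h1 (gsh_word_letter (k := 0) a)
  refine gsh_lang_congr (fun w => ?_) h2
  constructor
  · rintro ⟨u, v, ⟨hu, hz⟩, rfl, rfl⟩
    refine Dec.cons _ u [] rfl [] τ hu (fun y => ?_) Dec.nil
    obtain ⟨z, -, hz2⟩ := hz y
    rw [hz2, z.2]
  · intro h
    cases h with
    | cons x u w hx t τ hu hτ h =>
      have hw : w = [] := dec_nil_right h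
      subst hw
      refine ⟨u, [a], ⟨hu, fun y => ⟨⟨run T u y.1, (hτ y).symm⟩, hu, rfl⟩⟩, rfl, hx⟩

open Classical in
theorem sigma_sf (ha : a ∈ s) (IH : ∀ x y, GSHLe 0 (W T (s.erase a) x y))
    (e : GRE (Lam T a (· ∈ s.erase a))) (he : e.height ≤ 0) :
    GSHLe 0 (lang (fun w : List α => ∃ t, t ∈ e.den ∧ Dec T a (· ∈ s.erase a) w t)) := by
  have hS : ¬ (a ∈ s.erase a) := by simp
  induction e with
  | zero =>
    refine gsh_lang_congr (fun w => ?_) (gsh_false (k := 0))
    constructor
    · exact False.elim
    · rintro ⟨t, ht, -⟩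
      exact absurd ht (Language.notMem_zero t)
  | one =>
    refine gsh_lang_congr (fun w => ?_) (gsh_nil (k := 0))
    constructor
    · rintro rfl
      exact ⟨[], rfl, Dec.nil⟩
    · rintro ⟨t, ht, hd⟩
      have ht' : t = [] := ht
      subst ht'
      exact dec_nil_right hd
  | letter τ =>
    refine gsh_lang_congr (fun w => ?_) (letter_class_sf IH τ)
    constructor
    · intro h
      exact ⟨[τ], rfl, h⟩
    · rintro ⟨t, ht, hd⟩
      have ht' : t = [τ] := ht
      subst ht'
      exact hd
  | add P R ihP ihR =>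
    have hP : P.height ≤ 0 := le_trans (le_max_left _ _) he
    have hR : R.height ≤ 0 := le_trans (le_max_right _ _) he
    refine gsh_lang_congr (fun w => ?_) (gsh_or (ihP hP) (ihR hR))
    constructor
    · rintro (⟨t, ht, hd⟩ | ⟨t, ht, hd⟩)
      · exact ⟨t, Language.mem_add _ _ _ |>.2 (Or.inl ht), hd⟩
      · exact ⟨t, Language.mem_add _ _ _ |>.2 (Or.inr ht), hd⟩
    · rintro ⟨t, ht, hd⟩
      rcases (Language.mem_add _ _ _).1 ht with ht | ht
      · exact Or.inl ⟨t, ht, hd⟩
      · exact Or.inr ⟨t, ht, hd⟩
  | mul P R ihP ihR =>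
    have hP : P.height ≤ 0 := le_trans (le_max_left _ _) he
    have hR : R.height ≤ 0 := le_trans (le_max_right _ _) he
    refine gsh_lang_congr (fun w => ?_) (gsh_append (ihP hP) (ihR hR))
    constructor
    · rintro ⟨u, v, ⟨t, ht, hd⟩, ⟨t', ht', hd'⟩, rfl⟩
      exact ⟨t ++ t', Language.mem_mul.2 ⟨t, ht, t', ht', rfl⟩, dec_append hd hd'⟩
    · rintro ⟨t, ht, hd⟩
      obtain ⟨t1, ht1, t2, ht2, rfl⟩ := Language.mem_mul.1 ht
      obtain ⟨w1, w2, rfl, h1, h2⟩ := dec_split hd
      exact ⟨w1, w2, ⟨t1, ht1, h1⟩, ⟨t2, ht2, h2⟩, rfl⟩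
  | compl P ihP =>
    refine gsh_lang_congr (fun w => ?_) (gsh_and (dec_dom_sf (T := T) ha) (gsh_not (ihP he)))
    constructor
    · rintro ⟨⟨t, hd⟩, hn⟩
      refine ⟨t, ?_, hd⟩
      intro ht
      exact hn ⟨t, ht, hd⟩
    · rintro ⟨t, ht, hd⟩
      refine ⟨⟨t, hd⟩, ?_⟩
      rintro ⟨t', ht', hd'⟩
      have := dec_functional hS hd hd'
      subst this
      exact ht ht'
  | star P _ =>
    exact absurd he (by simp [GRE.height])

/-- A word over `s` factors as complete blocks followed by a word without `a`. -/
theorem split_blocks [DecidableEq α] {T : α → Q → Q} {a : α} {s : Finset α} :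
    ∀ (n : ℕ) (w : List α), w.length = n → (∀ b ∈ w, b ∈ s) →
    ∃ m v t, w = m ++ v ∧ Dec T a (· ∈ s.erase a) m t ∧ ∀ b ∈ v, b ∈ s.erase a := by
  intro n
  induction n using Nat.strong_induction_on with
  | _ n ih =>
    intro w hn hw
    by_cases haw : a ∈ w
    · obtain ⟨u, v, rfl, hu⟩ := split_first a w haw
      have huS : ∀ b ∈ u, b ∈ s.erase a := by
        intro b hb
        exact Finset.mem_erase.2 ⟨fun hh => hu (hh ▸ hb), hw b (by simp [hb])⟩
      have hv : ∀ b ∈ v, b ∈ s := fun b hb => hw b (by simp [hb])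
      have hlen : v.length < n := by rw [← hn]; simp; omega
      obtain ⟨m, v', t, rfl, hd, hv'⟩ := ih _ hlen v rfl hv
      exact ⟨u ++ a :: m, v', blockOf u huS :: t, by simp,
        Dec.cons _ u m rfl t _ huS (fun _ => rfl) hd, hv'⟩
    · refine ⟨[], w, [], rfl, Dec.nil, fun b hb => ?_⟩
      exact Finset.mem_erase.2 ⟨fun hh => haw (hh ▸ hb), hw b hb⟩

open Classical in
theorem W_step (hT : Aper T) (ha : a ∈ s) (IH : ∀ x y, GSHLe 0 (W T (s.erase a) x y))
    (hQ : ∀ y1 y2 : Qa T a, GSHLe 0 (lang (fun t =>
      run (Tlam T a (· ∈ s.erase a)) t y1 = y2))) (x y : Q) :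
    GSHLe 0 (W T s x y) := by
  have hσ : ∀ y1 y2 : Qa T a, GSHLe 0 (lang (fun m : List α => ∃ t,
      run (Tlam T a (· ∈ s.erase a)) t y1 = y2 ∧ Dec T a (· ∈ s.erase a) m t)) := by
    intro y1 y2
    obtain ⟨e, he, hden⟩ := hQ y1 y2
    refine gsh_lang_congr (fun w => ?_) (sigma_sf ha IH e he)
    rw [hden]
    exact Iff.rfl
  have h1 : GSHLe 0 (lang (fun w : List α => (w ∈ W T (s.erase a) x y) ∨
      ∃ p : Q × Qa T a, ∃ r1 r2, (∃ u v, u ∈ W T (s.erase a) x p.1 ∧ v = [a] ∧ r1 = u ++ v) ∧
        (∃ m v, (∃ t, run (Tlam T a (· ∈ s.erase a)) t ⟨T a p.1, p.1, rfl⟩ = p.2 ∧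
          Dec T a (· ∈ s.erase a) m t) ∧ v ∈ W T (s.erase a) p.2.1 y ∧ r2 = m ++ v) ∧
        w = r1 ++ r2)) :=
    gsh_or (IH x y) (gsh_exists (fun p => gsh_append (gsh_append (IH x p.1) (gsh_word_letter a))
      (gsh_append (hσ _ _) (IH _ _))))
  refine gsh_congr (fun w => ?_) h1
  change _ ↔ ((∀ b ∈ w, b ∈ s) ∧ run T w x = y)
  constructor
  · rintro (⟨h1, h2⟩ | ⟨⟨z, y2⟩, r1, r2, ⟨u, v, ⟨hu, huz⟩, rfl, rfl⟩,
      ⟨m, v, ⟨t, ht, hd⟩, ⟨hv, hvy⟩, rfl⟩, rfl⟩)
    · exact ⟨fun b hb => (Finset.mem_erase.1 (h1 b hb)).2, h2⟩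
    · refine ⟨?_, ?_⟩
      · intro b hb
        simp only [List.mem_append, List.mem_singleton] at hb
        rcases hb with ((hb | rfl) | hb | hb)
        · exact (Finset.mem_erase.1 (hu b hb)).2
        · exact ha
        · exact ((dec_dom_iff (T := T) ha m).1 ⟨t, hd⟩).1 b hb
        · exact (Finset.mem_erase.1 (hv b hb)).2
      · simp only [run_append, run_cons, run_nil]
        rw [huz]
        have := dec_run hd ⟨T a z, z, rfl⟩
        rw [ht] at this
        simp only at this
        rw [← this]
        exact hvy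
  · rintro ⟨hw, hy⟩
    by_cases haw : a ∈ w
    · right
      obtain ⟨u, v, rfl, hu⟩ := split_first a w haw
      have huS : ∀ b ∈ u, b ∈ s.erase a := by
        intro b hb
        exact Finset.mem_erase.2 ⟨fun hh => hu (hh ▸ hb), hw b (by simp [hb])⟩
      have hv : ∀ b ∈ v, b ∈ s := fun b hb => hw b (by simp [hb])
      obtain ⟨m, v', t, rfl, hd, hv'⟩ := split_blocks (T := T) (a := a) _ v rfl hv
      refine ⟨⟨run T u x, run (Tlam T a (· ∈ s.erase a)) t ⟨T a (run T u x), _, rfl⟩⟩, u ++ [a],
        m ++ v', ⟨u, [a], ⟨huS, rfl⟩, rfl, rfl⟩, ⟨m, v', ⟨t, rfl, hd⟩, ⟨hv', ?_⟩, rfl⟩, by simp⟩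
      have := dec_run hd ⟨T a (run T u x), _, rfl⟩
      simp only at this ⊢
      rw [this]
      rw [← hy]
      simp [run_append]
    · left
      exact ⟨fun b hb => Finset.mem_erase.2 ⟨fun hh => haw (hh ▸ hb), hw b hb⟩, hy⟩

end Step

section Induct

theorem aper_tlam {Q α : Type} {T : α → Q → Q} {a : α} {S : α → Prop} (hT : Aper T) :
    Aper (Tlam T a S) := by
  intro t
  have hw : ∀ t : List (Lam T a S), ∃ w : List α, ∀ y, (run (Tlam T a S) t y).1 = run T w y.1 := by
    intro t
    induction t with
    | nil => exact ⟨[], fun _ => rfl⟩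
    | cons τ t ih =>
      obtain ⟨w, hw⟩ := ih
      obtain ⟨u, -, hu⟩ := τ.2
      refine ⟨u ++ a :: w, fun y => ?_⟩
      simp only [run_cons, run_append]
      rw [hw]
      simp only [Tlam]
      rw [hu]
  obtain ⟨w, hw⟩ := hw t
  obtain ⟨n, hn⟩ := hT w
  have hit : ∀ (k : ℕ) (y : Qa T a), (((run (Tlam T a S) t)^[k]) y).1 = ((run T w)^[k]) y.1 := by
    intro k
    induction k with
    | zero => intro y; rfl
    | succ k ih =>
      intro y
      rw [Function.iterate_succ_apply, Function.iterate_succ_apply, ih, hw]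
  refine ⟨n, fun y => Subtype.ext ?_⟩
  rw [hit, hit]
  exact hn _

open Classical in
theorem sf_of_aper_aux : ∀ (n : ℕ) (Q : Type) [Finite Q], Nat.card Q = n →
    ∀ (α : Type) [Finite α] (T : α → Q → Q), Aper T →
    ∀ x y : Q, GSHLe 0 (lang (fun w : List α => run T w x = y)) := by
  intro n
  induction n using Nat.strong_induction_on with
  | _ n ih =>
    intro Q _ hn α _ T hT
    haveI : Fintype α := Fintype.ofFinite α
    have hW : ∀ (s : Finset α) (x y : Q), GSHLe 0 (W T s x y) := by
      intro s
      induction s using Finset.strongInduction with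
      | H s ihs =>
        intro x y
        by_cases hinj : ∀ a ∈ s, Function.Injective (T a)
        · have hid : ∀ w : List α, (∀ b ∈ w, b ∈ s) → ∀ q, run T w q = q := by
            intro w
            induction w with
            | nil => intro _ q; rfl
            | cons b w ihw =>
              intro hw q
              simp only [run_cons]
              rw [aper_injective_id hT b (hinj b (hw b (by simp))) q]
              exact ihw (fun c hc => hw c (by simp [hc])) q
          by_cases hxy : x = y
          · refine gsh_lang_congr (fun w => ?_) (gsh_allin (k := 0) (· ∈ s))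
            constructor
            · intro hw
              exact ⟨hw, by rw [hid w hw x, hxy]⟩
            · exact fun h => h.1
          · refine gsh_lang_congr (fun w => ?_) (gsh_false (k := 0))
            constructor
            · exact False.elim
            · rintro ⟨hw, h⟩
              exact hxy (by rw [← h, hid w hw x])
        · push_neg at hinj
          obtain ⟨a, ha, hainj⟩ := hinj
          have hsurj : ¬ Function.Surjective (T a) := fun h =>
            hainj (Finite.injective_iff_surjective.2 h)
          have hcard : Nat.card (Qa T a) < n := by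
            rw [← hn]
            unfold Function.Surjective at hsurj
            push_neg at hsurj
            obtain ⟨q, hq⟩ := hsurj
            exact Finite.card_subtype_lt (x := q) (fun ⟨z, hz⟩ => hq z hz)
          have IHs : ∀ x y, GSHLe 0 (W T (s.erase a) x y) :=
            ihs _ (Finset.erase_ssubset ha)
          refine W_step hT ha IHs ?_ x y
          intro y1 y2
          haveI : Finite (Lam T a (· ∈ s.erase a)) := by
            unfold Lam
            infer_instance
          exact ih _ hcard (Qa T a) rfl (Lam T a (· ∈ s.erase a)) (Tlam T a _) (aper_tlam hT) y1 y2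
    intro x y
    refine gsh_lang_congr (fun w => ?_) (hW Finset.univ x y)
    constructor
    · exact fun h => h.2
    · exact fun h => ⟨fun b _ => Finset.mem_univ b, h⟩

/-- Schutzenberger's direction: path languages of an automaton with aperiodic transition monoid
are star-free. -/
theorem sf_of_aper {Q α : Type} [Finite Q] [Finite α] (T : α → Q → Q) (hT : Aper T) (x y : Q) :
    GSHLe 0 (lang (fun w : List α => run T w x = y)) :=
  sf_of_aper_aux _ Q rfl α T hT x y

end Induct

end Main

end Vale.Agent.Lib.P329
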