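import Vale.Agent.Lib.P329.Count
import Mathlib.Tactic.LinearCombination

open Computability

namespace Vale.Agent.Lib.P329

noncomputable section

open scoped Classical

section Tele

variable {α : Type} {p : ℕ} [Fact p.Prime] [Finite α]

/-- Counting a non-moving letter at a given partial sum. -/
theorem rg_still (lam : α → ZMod p) (c : α) (hc : lam c = 0) (θ : ZMod p) :
    Rg (fun (pre : List α) (x : α) => if x = c ∧ (pre.map lam).sum = θ then (1 : ℤ) else 0) := by
  have h1 := rg_inc (lam := lam) (P := fun _ _ => False) (N := fun x => x = c)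
    (fun x h => by rw [h]; exact hc) ⟨none, fun _ _ h => h.elim⟩ (-θ)
  have h2 := rg_inc (lam := lam) (P := fun _ _ => False) (N := fun _ => False)
    (fun _ h => h.elim) ⟨none, fun _ _ h => h.elim⟩ (-θ)
  refine rg_congr (fun pre x => ?_) (rg_sub h1 h2)
  simp only [gInc, IncP]
  have key : (-θ + (pre.map lam).sum = 0) ↔ ((pre.map lam).sum = θ) := by
    rw [neg_add_eq_sub, sub_eq_zero]
  by_cases hx : x = c
  · subst hx
    simp [hc, key]
  · simp [hx]

omit [Fact p.Prime] in
/-- Letter counts. -/
theorem rg_letter (c : α) :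
    Rg (fun (_ : List α) (x : α) => if x = c then (1 : ℤ) else 0) := by
  haveI : Fact (Nat.Prime 2) := ⟨Nat.prime_two⟩
  refine rg_congr (fun pre x => ?_) (rg_still (p := 2) (fun _ => 0) c rfl 0)
  simp

/-- The corner counts. -/
theorem rg_corner (lam : α → ZMod p) (d : α) (hd : lam d ≠ 0) (l0 : Option α) (hl0 : l0 ≠ some d)
    (θ : ZMod p) :
    Rg (fun (pre : List α) (x : α) =>
      if x = d ∧ lastOr lam pre none = l0 ∧ (pre.map lam).sum = θ then (1 : ℤ) else 0) := by
  have h1 := rg_inc (lam := lam) (P := fun _ _ => False) (N := fun _ => False)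
    (fun _ h => h.elim) ⟨none, fun _ _ h => h.elim⟩ (-(θ + lam d))
  have h2 := rg_inc (lam := lam) (P := fun l x => x = d ∧ l = l0) (N := fun _ => False)
    (fun _ h => h.elim) ⟨some d, fun l x h => by rw [h.1, h.2]; exact ⟨rfl, hl0⟩⟩ (-(θ + lam d))
  refine rg_congr (fun pre x => ?_) (rg_sub h1 h2)
  simp only [gInc, IncP]
  have key : (-(θ + lam d) + (pre.map lam).sum + lam d = 0) ↔ ((pre.map lam).sum = θ) := by
    constructor
    · intro h
      have : (pre.map lam).sum - θ = 0 := by
        rw [← h]; ring
      exact sub_eq_zero.1 this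
    · intro h
      rw [h]; ring
  by_cases hx : x = d
  · subst hx
    by_cases hs : (pre.map lam).sum = θ
    · have hT : -(θ + lam x) + (pre.map lam).sum ≠ 0 := by
        intro h0
        have := key.2 hs
        rw [h0, zero_add] at this
        exact hd this
      have hl : lBar lam (-(θ + lam x)) pre = lastOr lam pre none := by
        unfold lBar
        rw [if_neg hT]
      rw [hl]
      by_cases hl2 : lastOr lam pre none = l0
      · simp [hd, key, hs, hl2]
      · simp [hd, key, hs, hl2]
    · have h0 : ¬ (-(θ + lam x) + (pre.map lam).sum + lam x = 0) := fun h => hs (key.1 h)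
      simp only [h0, hs, and_false, false_and, or_false, if_false, sub_self]
  · simp [hx]

/-- The top state of a word: partial sum and last moving letter. -/
def topS (lam : α → ZMod p) (w : List α) : ZMod p × Option α :=
  ((w.map lam).sum, lastOr lam w none)

/-- The top state is resolved. -/
theorem res_topS (lam : α → ZMod p) : Res (topS (α := α) lam) := by
  haveI : NeZero p := ⟨(Fact.out : p.Prime).ne_zero⟩
  have h0 := res_top lam (0 : ZMod p)
  have h1 := res_top lam (1 : ZMod p)
  refine res_factor (res_pair h0 h1) (fun w w' H => ?_)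
  simp only [Prod.mk.injEq, zero_add] at H
  obtain ⟨⟨h2, h3⟩, -, h5⟩ := H
  have hl : ∀ v : List α, lastOr lam v none =
      if (v.map lam).sum = 0 then lBar lam 1 v else lBar lam 0 v := by
    intro v
    by_cases hv : (v.map lam).sum = 0
    · simp [hv, lBar]
    · simp [hv, lBar]
  simp only [topS, Prod.mk.injEq]
  refine ⟨h2, ?_⟩
  rw [hl w, hl w', h2, h3, h5]

/-- The step function: number of `c`-steps needed to reach `0`, taken in `1..p`. -/
def psi (p : ℕ) (a : ZMod p) : ℤ := if a = 0 then (p : ℤ) else (a.val : ℤ)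

theorem psi_step (a : ZMod p) :
    psi p (a - 1) - psi p a = -1 + (p : ℤ) * (if a = 1 then 1 else 0) := by
  haveI : NeZero p := ⟨(Fact.out : p.Prime).ne_zero⟩
  haveI : Fact (1 < p) := ⟨(Fact.out : p.Prime).one_lt⟩
  have hval1 : (1 : ZMod p).val = 1 := ZMod.val_one p
  by_cases ha : a = 0
  · subst ha
    have hne : (0 : ZMod p) - 1 ≠ 0 := by simp
    have h10 : (0 : ZMod p) ≠ 1 := zero_ne_one
    have hv : ((0 : ZMod p) - 1).val = p - 1 := by
      rw [zero_sub, ZMod.neg_val]
      simp [hval1]
    have hp : 1 ≤ p := (Fact.out : p.Prime).one_lt.le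
    simp only [psi, hne, if_false, if_true, hv, h10]
    push_cast [hp]
    ring
  · have h1le : (1 : ZMod p).val ≤ a.val := by
      rw [hval1]
      exact Nat.one_le_iff_ne_zero.2 (fun h => ha ((ZMod.val_eq_zero a).1 h))
    have hv : (a - 1).val = a.val - 1 := by
      rw [ZMod.val_sub h1le, hval1]
    by_cases h1 : a = 1
    · subst h1
      simp [psi, hval1]
      ring
    · have hne : a - 1 ≠ 0 := sub_ne_zero.2 h1
      simp only [psi, hne, ha, h1, if_false, hv]
      rw [hval1] at h1le
      push_cast [h1le]
      ring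

/-- Sums of corner weights. -/
theorem rg_corner_sum (lam : α → ZMod p) (W : ZMod p × Option α → α → ℤ)
    (hW : ∀ s l x, W (s, l) x ≠ 0 → lam x ≠ 0 ∧ l ≠ some x) :
    Rg (fun (pre : List α) (x : α) => W (topS lam pre) x) := by
  haveI : NeZero p := ⟨(Fact.out : p.Prime).ne_zero⟩
  haveI := Fintype.ofFinite α
  have h := rg_sum (α := α) (Finset.univ : Finset ((ZMod p × Option α) × α))
    (g := fun i pre x => W i.1 i.2 *
      (if x = i.2 ∧ lastOr lam pre none = i.1.2 ∧ (pre.map lam).sum = i.1.1 then (1 : ℤ) else 0))
    (by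
      rintro ⟨⟨s, l⟩, d⟩ -
      by_cases h0 : W (s, l) d = 0
      · exact rg_congr (fun pre x => by simp [h0]) rg_zero
      · obtain ⟨h1, h2⟩ := hW s l d h0
        exact rg_mul _ (rg_corner lam d h1 l h2 s))
  refine rg_congr (fun pre x => ?_) h
  rw [Finset.sum_eq_single (topS lam pre, x)]
  · simp [topS]
  · rintro ⟨⟨s, l⟩, d⟩ - hne
    have : ¬ (x = d ∧ lastOr lam pre none = l ∧ (pre.map lam).sum = s) := by
      rintro ⟨rfl, rfl, rfl⟩
      exact hne rfl
    simp [this]
  · intro h
    exact absurd (Finset.mem_univ _) h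

/-- Counting a moving letter at a given partial sum, by telescoping. -/
theorem rg_moving (lam : α → ZMod p) (c : α) (hc : lam c ≠ 0) (θ : ZMod p) :
    Rg (fun (pre : List α) (x : α) => if x = c ∧ (pre.map lam).sum = θ then (1 : ℤ) else 0) := by
  haveI : NeZero p := ⟨(Fact.out : p.Prime).ne_zero⟩
  set κ : ZMod p := (lam c)⁻¹ with hκ
  have hκc : lam c * κ = 1 := mul_inv_cancel₀ hc
  -- the potential
  let b : ZMod p → ZMod p := fun s => -(-(θ + lam c) + s) * κ
  have hb : ∀ s, b (s + lam c) = b s - 1 := by
    intro s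
    simp only [b]
    linear_combination (-1 : ZMod p) * hκc
  have hb1 : ∀ s, b s = 1 ↔ s = θ := by
    intro s
    constructor
    · intro h
      have h2 : (b s) * lam c = lam c := by rw [h, one_mul]
      have h3 : -(-(θ + lam c) + s) = lam c := by
        calc -(-(θ + lam c) + s) = -(-(θ + lam c) + s) * (lam c * κ) := by rw [hκc, mul_one]
          _ = (b s) * lam c := by simp only [b]; ring
          _ = lam c := h2
      linear_combination (-1 : ZMod p) * h3
    · rintro rfl
      simp only [b]
      linear_combination hκc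
  let Ξ : ZMod p × Option α → ℤ := fun q => if q.2 = some c then psi p (b q.1) else 0
  let W : ZMod p × Option α → α → ℤ := fun q x =>
    (if lam x ≠ 0 ∧ x ≠ c ∧ q.2 = some c then psi p (b q.1) else 0)
      - (if x = c ∧ q.2 ≠ some c then psi p (b q.1) else 0)
  have hW : ∀ s l x, W (s, l) x ≠ 0 → lam x ≠ 0 ∧ l ≠ some x := by
    intro s l x h
    simp only [W] at h
    by_cases h1 : lam x ≠ 0 ∧ x ≠ c ∧ l = some c
    · refine ⟨h1.1, ?_⟩
      rw [h1.2.2]
      intro h2
      exact h1.2.1 (Option.some.inj h2).symm
    · by_cases h2 : x = c ∧ l ≠ some c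
      · rw [h2.1]
        exact ⟨hc, h2.2⟩
      · simp [h1, h2] at h
  have hmain := rg_add (rg_add (rg_letter (α := α) c) (rg_tele (res_topS lam) Ξ))
    (rg_corner_sum lam W hW)
  refine rg_of_mul (D := (p : ℤ)) (by exact_mod_cast (Fact.out : p.Prime).ne_zero)
    (rg_congr (fun pre x => ?_) hmain)
  set s := (pre.map lam).sum with hs
  set l := lastOr lam pre none with hl
  have hσ : topS lam pre = (s, l) := rfl
  have hσ' : topS lam (pre ++ [x]) = (s + lam x, if lam x ≠ 0 then some x else l) := by
    simp only [topS, List.map_append, List.sum_append, List.map_cons, List.map_nil,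
      List.sum_cons, List.sum_nil, add_zero, lastOr_snoc]
    rfl
  rw [hσ, hσ']
  simp only [Ξ, W]
  by_cases hx : x = c
  · subst hx
    have h1 := psi_step (b s)
    simp only [hb1] at h1
    rw [hb s]
    simp only [hc, ne_eq, not_false_eq_true, if_true, true_and, not_true_eq_false, false_and,
      if_false]
    by_cases hlc : l = some x
    · by_cases hsθ : s = θ
      · simp only [hlc, hsθ, if_true, not_true_eq_false, if_false] at h1 ⊢
        linarith
      · simp only [hlc, hsθ, if_true, if_false, not_true_eq_false] at h1 ⊢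
        linarith
    · by_cases hsθ : s = θ
      · simp only [hlc, hsθ, if_true, if_false, not_false_eq_true] at h1 ⊢
        linarith
      · simp only [hlc, hsθ, if_true, if_false, not_false_eq_true] at h1 ⊢
        linarith
  · by_cases hm : lam x = 0
    · simp [hx, hm]
    · have hne : some x ≠ some c := fun h => hx (Option.some.inj h)
      simp only [hm, hx, ne_eq, not_false_eq_true, if_true, hne, if_false, true_and, false_and]
      ring

/-- Counting any letter at a given partial sum. -/
theorem rg_level (lam : α → ZMod p) (c : α) (θ : ZMod p) :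
    Rg (fun (pre : List α) (x : α) => if x = c ∧ (pre.map lam).sum = θ then (1 : ℤ) else 0) := by
  by_cases hc : lam c = 0
  · exact rg_still lam c hc θ
  · exact rg_moving lam c hc θ

end Tele

end

end Vale.Agent.Lib.P329
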